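import Vale.Agent.P039.Match

namespace Vale.Agent.P039

open Finset

universe u

variable {B W V : Type u} [Fintype B] [Fintype W] [Fintype V] [DecidableEq B] [DecidableEq W]
  [DecidableEq V]

omit [DecidableEq V] in
theorem conn3_of (M : PM0 B W V) {B' W' : Type u} [Fintype B'] [Fintype W'] [DecidableEq B']
    [DecidableEq W'] (π' : ZMod 3 → B' ≃ W') (φB : B → B' ⊕ W') (φW : W → B' ⊕ W')
    (hs : ∀ z, (∃ s, φB s = z) ∨ ∃ w, φW w = z) (ψ : B' → ZMod 3 → B)
    (he : ∀ s i, φB s = φW (M.π i s) ∨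
      ∃ s', s = ψ s' i ∧ φB s = Sum.inl s' ∧ φW (M.π i s) = Sum.inr (π' i s'))
    (P : Finset B') (Q : Finset W') (h1 : P.Nonempty ∨ Q.Nonempty)
    (h2 : Pᶜ.Nonempty ∨ Qᶜ.Nonempty) :
    3 ≤ (univ.filter fun e : B' × ZMod 3 => ¬(e.1 ∈ P ↔ π' e.2 e.1 ∈ Q)).card := by
  have := M.conn3 (univ.filter fun s => φB s ∈ P.disjSum Q)
    (univ.filter fun w => φW w ∈ P.disjSum Q) ?_ ?_
  · refine this.trans ((Finset.card_le_card ?_).trans
      (Finset.card_image_le (f := fun e : B' × ZMod 3 => (ψ e.1 e.2, e.2))))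
    rintro ⟨s, i⟩ h
    simp only [Finset.mem_filter, Finset.mem_univ, true_and] at h
    rcases he s i with e | ⟨s', e1, e2, e3⟩
    · rw [e] at h
      exact absurd Iff.rfl h
    · rw [e2, e3] at h
      exact Finset.mem_image.2 ⟨(s', i), by simpa using h, by rw [e1]⟩
  · obtain ⟨z, hz⟩ : (P.disjSum Q).Nonempty := by
      rcases h1 with ⟨s, h⟩ | ⟨s, h⟩
      · exact ⟨Sum.inl s, by simpa⟩
      · exact ⟨Sum.inr s, by simpa⟩
    rcases hs z with ⟨s, rfl⟩ | ⟨s, rfl⟩
    · exact Or.inl ⟨s, by simpa using hz⟩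
    · exact Or.inr ⟨s, by simpa using hz⟩
  · obtain ⟨z, hz⟩ : ∃ z, z ∉ P.disjSum Q := by
      rcases h2 with ⟨s, h⟩ | ⟨s, h⟩
      · exact ⟨Sum.inl s, by simpa using h⟩
      · exact ⟨Sum.inr s, by simpa using h⟩
    rcases hs z with ⟨s, rfl⟩ | ⟨s, rfl⟩
    · exact Or.inl ⟨s, by simpa using hz⟩
    · exact Or.inr ⟨s, by simpa using hz⟩

structure CutData (M : PM0 B W V) where
  P : Finset B
  Q : Finset W
  e : ZMod 3 → B
  eP : ∀ i, e i ∈ P
  eQ : ∀ i, M.π i (e i) ∉ Q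
  uniq : ∀ s i, s ∈ P → M.π i s ∉ Q → s = e i
  inn : ∀ s i, M.π i s ∈ Q → s ∈ P

namespace CutData

variable {M : PM0 B W V} (D : CutData M)

omit [DecidableEq V] in
theorem out {s : B} (h : s ∉ D.P) (i : ZMod 3) : M.π i s ∉ D.Q := fun c => h (D.inn s i c)

omit [DecidableEq V] in
theorem key (i : ZMod 3) : M.x (D.e (i + 1)) i = M.x (D.e (i + 2)) i := by
  by_contra hne
  let s1 := (M.π (i + 2)).symm (M.π (i + 1) (D.e (i + 1)))
  have aux : ∀ s s', M.π (i + 1) s ∉ D.Q → M.x s i = M.x (D.e (i + 1)) i →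
      M.π (i + 1) s = M.π (i + 2) s' → s' ∉ D.P ∧ M.x s' i = M.x (D.e (i + 1)) i := by
    intro s s' h1 h2 h3
    have h4 : M.x s' i = M.x (D.e (i + 1)) i := by rw [← M.inv s s' i h3, h2]
    refine ⟨fun c => hne ?_, h4⟩
    rw [← D.uniq s' (i + 2) c (h3 ▸ h1), h4]
  have h1 := aux (D.e (i + 1)) s1 (D.eQ _) rfl (by simp [s1])
  exact (M.orb i {s | s ∉ D.P ∧ M.x s i = M.x (D.e (i + 1)) i}
    (fun s hs s' e => aux s s' (D.out hs.1 _) hs.2 e) s1 h1 _ h1.2).1 (D.eP _)

def π1 (i : ZMod 3) : {s // s ∈ D.P} ≃ Option {w // w ∈ D.Q} where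
  toFun s := if h : M.π i s ∈ D.Q then some ⟨_, h⟩ else none
  invFun w := match w with
    | none => ⟨D.e i, D.eP i⟩
    | some w => ⟨(M.π i).symm w, D.inn _ i (by simp)⟩
  left_inv s := by
    dsimp only
    split_ifs with h
    · simp
    · exact Subtype.ext (D.uniq _ _ s.2 h).symm
  right_inv w := by
    cases w with
    | none => simp [D.eQ]
    | some w => simp

omit [DecidableEq V] in
theorem π1_in {i : ZMod 3} {s : {s // s ∈ D.P}} (h : M.π i s ∈ D.Q) :
    D.π1 i s = some ⟨_, h⟩ := dif_pos h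

omit [DecidableEq V] in
theorem π1_out {i : ZMod 3} {s : {s // s ∈ D.P}} (h : M.π i s ∉ D.Q) : D.π1 i s = none :=
  dif_neg h

omit [DecidableEq V] in
theorem π1_eq {i j : ZMod 3} {s s' : {s // s ∈ D.P}} : D.π1 i s = D.π1 j s' ↔
    M.π i s = M.π j s' ∨ (M.π i s ∉ D.Q ∧ M.π j s' ∉ D.Q) := by
  by_cases h1 : M.π i s ∈ D.Q <;> by_cases h2 : M.π j s' ∈ D.Q
  · simp [D.π1_in h1, D.π1_in h2, h1]
  · simp only [D.π1_in h1, D.π1_out h2, h1, reduceCtorEq, not_true, false_and, or_false,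
      false_iff]
    exact fun e => h2 (e ▸ h1)
  · simp only [D.π1_out h1, D.π1_in h2, h2, reduceCtorEq, not_true, and_false, or_false,
      false_iff]
    exact fun e => h1 (e ▸ h2)
  · simp [D.π1_out h1, D.π1_out h2, h1, h2]

def U1 : Finset V := univ.filter fun y => ∃ s ∈ D.P, ∃ i, M.x s i = y

def M1 : PM0 {s // s ∈ D.P} (Option {w // w ∈ D.Q}) {y // y ∈ D.U1} where
  π := D.π1
  x s i := ⟨M.x s i, Finset.mem_filter.2 ⟨mem_univ _, s, s.2, i, rfl⟩⟩
  col y := M.col y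
  col_x s i := M.col_x _ _
  surj y := by
    obtain ⟨s, hs, i, e⟩ := (Finset.mem_filter.1 y.2).2
    exact ⟨⟨s, hs⟩, Subtype.ext (by dsimp only; rw [← e, M.col_x])⟩
  inv s s' i h := by
    refine Subtype.ext ?_
    rcases D.π1_eq.1 h with e | ⟨h1, h2⟩
    · exact M.inv _ _ _ e
    · dsimp only
      rw [D.uniq _ _ s.2 h1, D.uniq _ _ s'.2 h2, D.key]
  orb i A hA s hs s' e := by
    have := M.orb i {t | (∃ h : t ∈ D.P, ⟨t, h⟩ ∈ A) ∨
      (t ∉ D.P ∧ ⟨D.e (i + 1), D.eP _⟩ ∈ A)} ?_ s (Or.inl ⟨s.2, hs⟩) s' (congrArg Subtype.val e)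
    · rcases this with ⟨_, h⟩ | ⟨h, -⟩
      · exact h
      · exact absurd s'.2 h
    · rintro t (⟨h1, h2⟩ | ⟨h1, h2⟩) t' e'
      · by_cases c : t' ∈ D.P
        · exact Or.inl ⟨c, hA _ h2 _ (D.π1_eq.2 (Or.inl e'))⟩
        · refine Or.inr ⟨c, ?_⟩
          have := D.uniq t _ h1 (e' ▸ D.out c _)
          subst this
          exact h2
      · by_cases c : t' ∈ D.P
        · exact Or.inl ⟨c, hA _ h2 _ (D.π1_eq.2 (Or.inr ⟨D.eQ _, e' ▸ D.out h1 _⟩))⟩
        · exact Or.inr ⟨c, h2⟩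
  nonemptyB := ⟨⟨D.e 0, D.eP 0⟩⟩
  conn3 := conn3_of M D.π1
    (fun s => if h : s ∈ D.P then Sum.inl ⟨s, h⟩ else Sum.inr none)
    (fun w => if h : w ∈ D.Q then Sum.inr (some ⟨w, h⟩) else Sum.inr none)
    (by
      rintro (s | _ | w)
      · exact Or.inl ⟨s, dif_pos s.2⟩
      · exact Or.inr ⟨_, dif_neg (D.eQ 0)⟩
      · exact Or.inr ⟨w, dif_pos w.2⟩)
    (fun s _ => s) (by
      intro s i
      by_cases h : s ∈ D.P
      · refine Or.inr ⟨⟨s, h⟩, rfl, dif_pos h, ?_⟩
        split_ifs with c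
        · rw [D.π1_in c]
        · rw [D.π1_out c]
      · left
        rw [dif_neg h, dif_neg (D.out h i)])

def lift (i : ZMod 3) : Option {s // s ∉ D.P} → B
  | none => D.e i
  | some s => s

omit [DecidableEq V] in
theorem lift_out (i : ZMod 3) (b : Option {s // s ∉ D.P}) : M.π i (D.lift i b) ∉ D.Q := by
  cases b with
  | none => exact D.eQ i
  | some s => exact D.out s.2 i

def π2 (i : ZMod 3) : Option {s // s ∉ D.P} ≃ {w // w ∉ D.Q} where
  toFun b := ⟨M.π i (D.lift i b), D.lift_out i b⟩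
  invFun w := if h : (M.π i).symm w ∈ D.P then none else some ⟨_, h⟩
  left_inv b := by
    cases b with
    | none => simp [lift, D.eP]
    | some s => simp [lift, s.2]
  right_inv w := by
    refine Subtype.ext ?_
    dsimp only
    split_ifs with h
    · rw [lift, ← D.uniq _ i h (by simpa using w.2)]; simp
    · simp [lift]

omit [DecidableEq V] in
theorem π2_val (i : ZMod 3) (b : Option {s // s ∉ D.P}) :
    (D.π2 i b : W) = M.π i (D.lift i b) := rfl

omit [DecidableEq V] in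
theorem x_lift (i : ZMod 3) (b : Option {s // s ∉ D.P}) :
    M.x (D.lift (i + 1) b) i = M.x (D.lift (i + 2) b) i := by
  cases b with
  | none => exact D.key i
  | some s => rfl

def U2 : Finset V := univ.filter fun y => ∃ b i, M.x (D.lift (i + 1) b) i = y

def proj (s : B) : Option {s // s ∉ D.P} := if h : s ∈ D.P then none else some ⟨s, h⟩

omit [DecidableEq V] in
theorem proj_lift (i : ZMod 3) (b : Option {s // s ∉ D.P}) : D.proj (D.lift i b) = b := by
  cases b with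
  | none => exact dif_pos (D.eP i)
  | some s => exact dif_neg s.2

omit [DecidableEq V] in
theorem lift_proj {i : ZMod 3} {s : B} (h : M.π i s ∉ D.Q) : D.lift i (D.proj s) = s := by
  unfold proj
  split_ifs with c
  · exact (D.uniq s i c h).symm
  · rfl

def M2 : PM0 (Option {s // s ∉ D.P}) {w // w ∉ D.Q} {y // y ∈ D.U2} where
  π := D.π2
  x b i := ⟨M.x (D.lift (i + 1) b) i, Finset.mem_filter.2 ⟨mem_univ _, b, i, rfl⟩⟩
  col y := M.col y
  col_x s i := M.col_x _ _
  surj y := by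
    obtain ⟨s, i, e⟩ := (Finset.mem_filter.1 y.2).2
    exact ⟨s, Subtype.ext (by dsimp only; rw [← e, M.col_x])⟩
  inv s s' i h := by
    refine Subtype.ext ?_
    dsimp only
    rw [D.x_lift i s']
    exact M.inv _ _ _ (congrArg Subtype.val h)
  orb i A hA s hs s' e := by
    have := M.orb i {t | D.proj t ∈ A} ?_ (D.lift (i + 1) s) (by simpa [D.proj_lift] using hs)
      (D.lift (i + 1) s') (congrArg Subtype.val e)
    · simpa [D.proj_lift] using this
    · intro t ht t' e'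
      by_cases c : M.π (i + 1) t ∈ D.Q
      · have h1 : D.proj t = none := dif_pos (D.inn _ _ c)
        have h2 : D.proj t' = none := dif_pos (D.inn _ _ (e' ▸ c))
        change D.proj t' ∈ A
        rw [h2, ← h1]; exact ht
      · refine hA _ ht _ (Subtype.ext ?_)
        rw [π2_val, π2_val, D.lift_proj c, D.lift_proj (e' ▸ c), e']
  nonemptyB := ⟨none⟩
  conn3 := conn3_of M D.π2 (fun s => Sum.inl (D.proj s))
    (fun w => if h : w ∈ D.Q then Sum.inl none else Sum.inr ⟨w, h⟩)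
    (by
      rintro (s | w)
      · exact Or.inl ⟨D.lift 0 s, by rw [D.proj_lift]⟩
      · exact Or.inr ⟨w, dif_neg w.2⟩)
    (fun s i => D.lift i s) (by
      intro s i
      by_cases h : M.π i s ∈ D.Q
      · left
        rw [dif_pos h, proj, dif_pos (D.inn _ _ h)]
      · refine Or.inr ⟨D.proj s, (D.lift_proj h).symm, rfl, ?_⟩
        rw [dif_neg h]
        congr 1
        exact Subtype.ext (by rw [π2_val, D.lift_proj h]))

theorem card_U : Fintype.card V + 3 ≤ D.U1.card + D.U2.card := by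
  rw [← Finset.card_union_add_card_inter]
  have h1 : D.U1 ∪ D.U2 = univ := by
    refine Finset.eq_univ_iff_forall.2 fun y => ?_
    obtain ⟨s, hs⟩ := M.surj y
    by_cases c : s ∈ D.P
    · exact Finset.mem_union_left _ (Finset.mem_filter.2 ⟨mem_univ _, s, c, _, hs⟩)
    · exact Finset.mem_union_right _ (Finset.mem_filter.2 ⟨mem_univ _, some ⟨s, c⟩, _, hs⟩)
  have h2 : (univ.image fun i => M.x (D.e (i + 1)) i) ⊆ D.U1 ∩ D.U2 := by
    intro y hy
    obtain ⟨i, -, rfl⟩ := Finset.mem_image.1 hy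
    exact Finset.mem_inter.2 ⟨Finset.mem_filter.2 ⟨mem_univ _, _, D.eP _, _, rfl⟩,
      Finset.mem_filter.2 ⟨mem_univ _, none, i, rfl⟩⟩
  have h3 := Finset.card_le_card h2
  rw [Finset.card_image_of_injective _ fun i j e => M.x_inj e] at h3
  rw [h1]
  simpa using h3

omit [DecidableEq V] in
theorem cardB2 : Fintype.card (Option {s // s ∉ D.P}) + D.P.card = Fintype.card B + 1 := by
  rw [Fintype.card_option, Fintype.card_subtype_compl, Fintype.card_coe]
  have := Finset.card_le_univ D.P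
  omega

end CutData

end Vale.Agent.P039
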