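import Vale.Agent.P039.PM

namespace Vale.Agent.P039

open Finset

universe u

namespace PM

variable {B W V : Type u} [Fintype B] [Fintype W] [Fintype V] [DecidableEq B] [DecidableEq W]
  [DecidableEq V] (M : PM B W V)

structure Cyc (C : Finset B) (τ ρ : B → ZMod 3) : Prop where
  ne : C.Nonempty
  neq : ∀ s ∈ C, τ s ≠ ρ s
  injτ : ∀ s ∈ C, ∀ s' ∈ C, M.x s (τ s) = M.x s' (τ s') → s = s'
  injρ : ∀ s ∈ C, ∀ s' ∈ C, M.x s (ρ s) = M.x s' (ρ s') → s = s'
  ex1 : ∀ s ∈ C, ∃ s' ∈ C, M.x s (ρ s) = M.x s' (τ s')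
  ex2 : ∀ s ∈ C, ∃ s' ∈ C, M.x s (τ s) = M.x s' (ρ s')
  single : ∀ A : B → Prop, (∀ s ∈ C, ∀ s' ∈ C, M.x s (ρ s) = M.x s' (τ s') → (A s ↔ A s')) →
    ∀ s ∈ C, ∀ s' ∈ C, A s → A s'

variable {M}

omit [DecidableEq V] in
theorem Cyc.symm {C : Finset B} {τ ρ : B → ZMod 3} (h : M.Cyc C τ ρ) : M.Cyc C ρ τ :=
  ⟨h.ne, fun s hs => (h.neq s hs).symm, h.injρ, h.injτ, h.ex2, h.ex1,
    fun A hA => h.single A fun s hs s' hs' e => (hA s' hs' s hs e.symm).symm⟩

def zc (C : Finset B) (τ ρ : B → ZMod 3) (s : B) (i : ZMod 3) : ℤ :=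
  if s ∈ C then (if i = τ s then 1 else 0) - (if i = ρ s then 1 else 0) else 0

variable (M) in
def Side (C : Finset B) (τ ρ : B → ZMod 3) (S : Finset W) : Prop :=
  ∀ s i, (if M.π (i + 1) s ∈ S then (1 : ℤ) else 0) - (if M.π (i + 2) s ∈ S then 1 else 0) =
    zc C τ ρ s i

omit [DecidableEq V] in
theorem Side.compl {C : Finset B} {τ ρ : B → ZMod 3} {S : Finset W} (h : M.Side C τ ρ S) :
    M.Side C ρ τ Sᶜ := by
  intro s i
  have := h s i
  simp only [zc, Finset.mem_compl] at this ⊢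
  split_ifs at this ⊢ <;> simp_all

omit [DecidableEq V] in
theorem Side.out {C : Finset B} {τ ρ : B → ZMod 3} {S : Finset W} (h : M.Side C τ ρ S) {s : B}
    (hs : s ∉ C) (i : ZMod 3) : M.π i s ∈ S ↔ M.π 0 s ∈ S := by
  have h1 := h s 1
  have h2 := h s 2
  simp only [zc, hs, if_false, show (1 + 1 : ZMod 3) = 0 + 2 from rfl,
    show (1 + 2 : ZMod 3) = 0 from rfl, show (2 + 1 : ZMod 3) = 0 from rfl,
    show (2 + 2 : ZMod 3) = 0 + 1 from rfl] at h1 h2
  rcases cases3 i 0 with rfl | rfl | rfl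
  · rfl
  · split_ifs at h2 <;> simp_all
  · split_ifs at h1 <;> simp_all

omit [DecidableEq V] in
theorem Side.inn {C : Finset B} {τ ρ : B → ZMod 3} {S : Finset W} (h : M.Side C τ ρ S) {s : B}
    (hs : s ∈ C) (hn : τ s ≠ ρ s) : M.π (τ s + 1) s ∈ S ∧ M.π (τ s + 2) s ∉ S ∧
      M.π (ρ s + 1) s ∉ S ∧ M.π (ρ s + 2) s ∈ S := by
  have h1 := h s (τ s)
  have h2 := h s (ρ s)
  simp only [zc, hs, if_true, hn, hn.symm, if_false] at h1 h2
  split_ifs at h1 h2 <;> simp_all

theorem side_ineq {C : Finset B} {τ ρ : B → ZMod 3} (h : M.Cyc C τ ρ) {S : Finset W}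
    (hS : M.Side C τ ρ S) {w0 : W} (hw : w0 ∉ S) (U : Finset V)
    (hU1 : ∀ y ∈ U, ∀ s ∈ C, y ≠ M.x s (τ s))
    (hU2 : ∀ y ∈ U, ∃ s i, y = M.x s i ∧ M.π (i + 1) s ∈ S) :
    3 * U.card + (C.filter fun s => ρ s = τ s + 2).card ≤
      3 + (C.filter fun s => ρ s = τ s + 1).card +
        3 * (univ.filter fun s => s ∉ C ∧ M.π 0 s ∈ S).card := by
  set I := univ.filter fun s => s ∉ C ∧ M.π 0 s ∈ S with hI
  let E' : Finset (B × ZMod 3) :=
    univ.filter fun e => M.π (e.2 + 1) e.1 ∈ S ∨ M.π (e.2 + 2) e.1 ∈ S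
  let Y := C.image fun s => M.x s (τ s)
  have hY : Y.card = C.card := Finset.card_image_of_injOn fun s hs s' hs' e => h.injτ s hs s' hs' e
  have key := M.euler S w0 hw E' (fun s i hh => by simpa [E'] using hh) (C ∪ I) (Y ∪ U) ?_
  · rw [Finset.card_union_of_disjoint, Finset.card_union_of_disjoint, hY] at key
    · have h1 := M.card_whites S
      have h2 : (E'.card : ℤ) = ∑ s, ∑ i,
          if M.π (i + 1) s ∈ S ∨ M.π (i + 2) s ∈ S then (1 : ℤ) else 0 := by
        rw [← Fintype.sum_prod_type']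
        simp [E']
      have h3 : ∀ s, 3 * (∑ i, if M.π (i + 1) s ∈ S ∨ M.π (i + 2) s ∈ S then (1 : ℤ) else 0) -
          (∑ i, if M.π i s ∈ S then (1 : ℤ) else 0) =
          6 * (if s ∈ C then 1 else 0) + 6 * (if s ∈ I then 1 else 0) +
          (if s ∈ C.filter fun s => ρ s = τ s + 1 then 1 else 0) -
          (if s ∈ C.filter fun s => ρ s = τ s + 2 then 1 else 0) := by
        intro s
        by_cases hs : s ∈ C
        · obtain ⟨a1, a2, a3, a4⟩ := hS.inn hs (h.neq s hs)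
          rw [sum3 _ (τ s), sum3 _ (τ s)]
          rcases cases3 (ρ s) (τ s) with e | e | e
          · exact absurd e.symm (h.neq s hs)
          · rw [e] at a3 a4
            simp only [z11, z12, z21, z22] at a3 a4 ⊢
            simp [a1, a2, a4, hs, hI, e, show (1 : ZMod 3) ≠ 2 by decide]
          · rw [e] at a3 a4
            simp only [z11, z12, z21, z22] at a3 a4 ⊢
            simp [a1, a2, a3, hs, hI, e, (n12 _).symm]
        · simp only [hS.out hs]
          by_cases h0 : M.π 0 s ∈ S <;> simp [h0, hs, hI]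
      have h4 := Finset.sum_congr (rfl : (univ : Finset B) = univ) fun s _ => h3 s
      simp only [Finset.sum_sub_distrib, Finset.sum_add_distrib, ← Finset.mul_sum, ← h2, h1,
        Finset.sum_ite_mem, Finset.univ_inter, Finset.sum_const, nsmul_eq_mul, mul_one] at h4
      omega
    · rw [Finset.disjoint_right]
      intro y hy hy'
      obtain ⟨s, hs, rfl⟩ := Finset.mem_image.1 hy'
      exact hU1 _ hy s hs rfl
    · rw [Finset.disjoint_left]
      intro s hs hs'
      simp [hI, hs] at hs'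
  · intro a b hab
    have hab' : ∀ s i, M.π (i + 1) s ∈ S ∨ M.π (i + 2) s ∈ S → b (M.x s i) = a s :=
      fun s i hh => hab s i (by simpa [E'] using hh)
    obtain ⟨s1, hs1⟩ := h.ne
    have hC : ∀ s ∈ C, a s = a s1 := by
      intro s hs
      refine h.single (fun s => a s = a s1) (fun s hs s' hs' e => ?_) s1 hs1 s hs rfl
      rw [← hab' s (ρ s) (Or.inr (hS.inn hs (h.neq s hs)).2.2.2), e,
        hab' s' (τ s') (Or.inl (hS.inn hs' (h.neq s' hs')).1)]
    have hall := M.conn (fun s => s ∈ C ∨ M.π 0 s ∉ S ∨ a s = a s1)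
      (fun w => w ∉ S ∨ a ((M.π 0).symm w) = a s1) (fun s i => by
        by_cases hi : M.π i s ∈ S
        · rw [M.val a b (· ∈ S) hab' s i hi]
          by_cases hs : s ∈ C
          · simp [hs, hC s hs]
          · simp [hs, hi, (hS.out hs i).1 hi]
        · by_cases hs : s ∈ C
          · simp [hs, hi]
          · simp [hs, hi, ← hS.out hs i]) s1 (Or.inl hs1)
    have hall' : ∀ s i, M.π i s ∈ S → a s = a s1 := by
      intro s i hi
      by_cases hs : s ∈ C
      · exact hC s hs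
      · rcases hall s with h1 | h1 | h1
        · exact absurd h1 hs
        · exact absurd ((hS.out hs i).1 hi) h1
        · exact h1
    refine ⟨a s1, fun s hs => ?_, fun y hy => ?_⟩
    · rcases Finset.mem_union.1 hs with hs | hs
      · exact hC s hs
      · exact hall' s 0 (by simpa [hI] using (Finset.mem_filter.1 hs).2.2)
    · rcases Finset.mem_union.1 hy with hy | hy
      · obtain ⟨s, hs, rfl⟩ := Finset.mem_image.1 hy
        rw [hab' s (τ s) (Or.inl (hS.inn hs (h.neq s hs)).1), hC s hs]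
      · obtain ⟨s, i, rfl, hi⟩ := hU2 y hy
        rw [hab' s i (Or.inl hi), hall' s _ hi]

theorem exists_side {C : Finset B} {τ ρ : B → ZMod 3} (h : M.Cyc C τ ρ) :
    ∃ S : Finset W, M.Side C τ ρ S := by
  obtain ⟨g, hg⟩ := M.exact (fun s i => (zc C τ ρ s i : ℚ)) (fun s => by
      simp only [zc]
      split_ifs <;> simp [Finset.sum_sub_distrib]) (fun b => by
      have : ∀ s, ∑ i, (zc C τ ρ s i : ℚ) * b (M.x s i) =
          if s ∈ C then b (M.x s (τ s)) - b (M.x s (ρ s)) else 0 := by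
        intro s
        simp only [zc]
        split_ifs <;> simp [Finset.sum_sub_distrib, sub_mul]
      simp only [this, Finset.sum_ite_mem, Finset.univ_inter, Finset.sum_sub_distrib]
      rw [sub_eq_zero, ← Finset.sum_image (f := b) (g := fun s => M.x s (τ s))
        fun s hs s' hs' e => h.injτ s hs s' hs' e,
        ← Finset.sum_image (f := b) (g := fun s => M.x s (ρ s))
        fun s hs s' hs' e => h.injρ s hs s' hs' e]
      congr 1
      ext y
      simp only [Finset.mem_image]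
      constructor
      · rintro ⟨s, hs, rfl⟩
        obtain ⟨s', hs', e⟩ := h.ex2 s hs
        exact ⟨s', hs', e.symm⟩
      · rintro ⟨s, hs, rfl⟩
        obtain ⟨s', hs', e⟩ := h.ex1 s hs
        exact ⟨s', hs', e.symm⟩)
  have g1 : ∀ s ∈ C, g (M.π (τ s + 1) s) = g (M.π (τ s + 2) s) + 1 := by
    intro s hs
    have := hg s (τ s)
    simp [zc, hs, h.neq s hs] at this
    linarith
  have g2 : ∀ s ∈ C, g (M.π (ρ s + 2) s) = g (M.π (ρ s + 1) s) + 1 := by
    intro s hs
    have := hg s (ρ s)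
    simp [zc, hs, (h.neq s hs).symm] at this
    linarith
  have g0 : ∀ s i, ¬(s ∈ C ∧ (i = τ s ∨ i = ρ s)) →
      g (M.π (i + 1) s) = g (M.π (i + 2) s) := by
    intro s i hh
    have := hg s i
    by_cases hs : s ∈ C
    · have h1 : i ≠ τ s := fun e => hh ⟨hs, Or.inl e⟩
      have h2 : i ≠ ρ s := fun e => hh ⟨hs, Or.inr e⟩
      simp [zc, h1, h2] at this
      linarith
    · simp [zc, hs] at this
      linarith
  have g3 : ∀ s ∈ C, g (M.π (ρ s + 2) s) = g (M.π (τ s + 1) s) := by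
    intro s hs
    rcases cases3 (ρ s) (τ s) with e | e | e
    · exact absurd e.symm (h.neq s hs)
    · have := g0 s (τ s + 2) (by
        rw [e]; rintro ⟨-, h1 | h1⟩
        · exact n02 _ h1.symm
        · exact n12 _ h1.symm)
      rw [e, z12, ← z21 (τ s), this, z22, z21]
    · rw [e, z22]
  -- the high value is the same at consecutive members of the cycle
  have g4 : ∀ s ∈ C, ∀ s' ∈ C, M.x s (ρ s) = M.x s' (τ s') →
      g (M.π (τ s + 1) s) = g (M.π (τ s' + 1) s') := by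
    intro s2 hs2 s1 hs1 e
    have ei : ρ s2 = τ s1 := M.x_inj e
    rw [← g3 s2 hs2]
    by_contra hne
    let A : Set B := {s | M.x s (τ s1) = M.x s1 (τ s1) ∧
      g (M.π (τ s1 + 2) s) = g (M.π (τ s1 + 1) s1)}
    let s3 := (M.π (τ s1 + 2)).symm (M.π (τ s1 + 1) s1)
    have h3 : s3 ∈ A := ⟨(M.inv s1 s3 _ (by simp [s3])).symm, by simp [s3]⟩
    have := M.orb (τ s1) A (fun s hs s' e' => ⟨by rw [← M.inv s s' _ e', hs.1], by
      rw [← e', ← hs.2]
      refine g0 s _ ?_
      rintro ⟨hsC, h1 | h1⟩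
      · have : s = s1 := h.injτ s hsC s1 hs1 (by rw [← h1]; exact hs.1)
        have h2 := hs.2
        rw [this, g1 s1 hs1] at h2
        linarith
      · have : s = s2 := h.injρ s hsC s2 hs2 (by rw [← h1, e]; exact hs.1)
        have h2 := hs.2
        rw [this] at h2
        exact hne (by rw [ei]; exact h2)⟩) s3 h3 s1 h3.1
    have h2 := this.2
    rw [g1 s1 hs1] at h2
    linarith
  obtain ⟨s1, hs1⟩ := h.ne
  set c := g (M.π (τ s1 + 1) s1) with hc
  have g5 : ∀ s ∈ C, g (M.π (τ s + 1) s) = c := fun s hs =>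
    h.single (fun s => g (M.π (τ s + 1) s) = c) (fun s hs s' hs' e => by rw [g4 s hs s' hs' e])
      s1 hs1 s hs rfl
  refine ⟨univ.filter fun w => g w = c, fun s i => ?_⟩
  simp only [Finset.mem_filter, Finset.mem_univ, true_and]
  by_cases hh : s ∈ C ∧ (i = τ s ∨ i = ρ s)
  · obtain ⟨hs, rfl | rfl⟩ := hh
    · have a1 := g5 s hs
      have a2 : g (M.π (τ s + 2) s) ≠ c := by have := g1 s hs; linarith
      simp [zc, hs, h.neq s hs, a1, a2]
    · have a1 : g (M.π (ρ s + 2) s) = c := by rw [g3 s hs, g5 s hs]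
      have a2 : g (M.π (ρ s + 1) s) ≠ c := by have := g2 s hs; linarith
      simp [zc, hs, (h.neq s hs).symm, a1, a2]
  · rw [g0 s i hh, sub_self]
    by_cases hs : s ∈ C
    · have h1 : i ≠ τ s := fun e => hh ⟨hs, Or.inl e⟩
      have h2 : i ≠ ρ s := fun e => hh ⟨hs, Or.inr e⟩
      simp [zc, h1, h2]
    · simp [zc, hs]

/-- One half of the disc count. -/
theorem side_ineq' {C : Finset B} {τ ρ μ : B → ZMod 3} (h : M.Cyc C τ ρ) {S : Finset W}
    (hS : M.Side C τ ρ S) {s0 : B} (hs0 : s0 ∉ C)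
    (hμ1 : ∀ s, s ≠ s0 → ∀ i, M.x s (μ s) ≠ M.x s0 i)
    (hμ2 : ∀ s s', s ≠ s0 → s' ≠ s0 → M.x s (μ s) = M.x s' (μ s') → s = s')
    (hμ3 : ∀ s ∈ C, ∃ s' ∈ C, M.x s (τ s) = M.x s' (μ s')) :
    (if M.π 0 s0 ∈ S then 6 else 0) + (C.filter fun s => ρ s = τ s + 2).card ≤
      3 + (C.filter fun s => ρ s = τ s + 1).card := by
  set I := univ.filter fun s => s ∉ C ∧ M.π 0 s ∈ S with hI
  obtain ⟨s1, hs1⟩ := h.ne
  have hne : ∀ s ∈ C, s ≠ s0 := fun s hs e => hs0 (e ▸ hs)
  let U1 := (I.erase s0).image fun s => M.x s (μ s)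
  have c1 : U1.card = (I.erase s0).card := Finset.card_image_of_injOn fun s hs s' hs' e =>
    hμ2 s s' (Finset.mem_erase.1 hs).1 (Finset.mem_erase.1 hs').1 e
  let U2 : Finset V := if M.π 0 s0 ∈ S then univ.image (M.x s0) else ∅
  have c2 : U2.card = if M.π 0 s0 ∈ S then 3 else 0 := by
    simp only [U2]
    split_ifs
    · rw [Finset.card_image_of_injective _ fun i j e => M.x_inj e]
      simp
    · simp
  have hU2 : ∀ y ∈ U2, M.π 0 s0 ∈ S ∧ ∃ i, y = M.x s0 i := by
    intro y hy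
    simp only [U2] at hy
    split_ifs at hy with h0
    · obtain ⟨i, -, rfl⟩ := Finset.mem_image.1 hy
      exact ⟨h0, i, rfl⟩
    · simp at hy
  have key := side_ineq h hS (hS.inn hs1 (h.neq s1 hs1)).2.1 (U1 ∪ U2) ?_ ?_
  · rw [Finset.card_union_of_disjoint, c1, c2, ← hI] at key
    · split_ifs at key ⊢ with h0
      · have h1 : s0 ∈ I := by simp [hI, hs0, h0]
        rw [Finset.card_erase_of_mem h1] at key
        have := Finset.card_pos.2 ⟨_, h1⟩
        omega
      · have h1 : s0 ∉ I := by simp [hI, h0]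
        rw [Finset.erase_eq_of_notMem h1] at key
        omega
    · rw [Finset.disjoint_left]
      intro y hy hy'
      obtain ⟨s, hs, rfl⟩ := Finset.mem_image.1 hy
      obtain ⟨-, i, e⟩ := hU2 _ hy'
      exact hμ1 s (Finset.mem_erase.1 hs).1 i e
  · intro y hy s hs e
    obtain ⟨s', hs', e'⟩ := hμ3 s hs
    rcases Finset.mem_union.1 hy with hy | hy
    · obtain ⟨s2, hs2, rfl⟩ := Finset.mem_image.1 hy
      have := hμ2 s2 s' (Finset.mem_erase.1 hs2).1 (hne s' hs') (e.trans e')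
      have h2 := (Finset.mem_erase.1 hs2).2
      simp [hI, this, hs'] at h2
    · obtain ⟨-, i, e2⟩ := hU2 _ hy
      exact hμ1 s' (hne s' hs') i (by rw [← e', ← e, e2])
  · intro y hy
    rcases Finset.mem_union.1 hy with hy | hy
    · obtain ⟨s2, hs2, rfl⟩ := Finset.mem_image.1 hy
      have h2 := (Finset.mem_filter.1 (Finset.mem_erase.1 hs2).2).2
      exact ⟨s2, _, rfl, (hS.out h2.1 _).2 h2.2⟩
    · obtain ⟨h0, i, rfl⟩ := hU2 _ hy
      exact ⟨s0, i, rfl, (hS.out hs0 _).2 h0⟩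

theorem disc {C : Finset B} {τ ρ : B → ZMod 3} (h : M.Cyc C τ ρ) {s0 : B} (hs0 : s0 ∉ C)
    (hμ1 : ∀ s, s ≠ s0 → ∀ i, M.x s (τ s) ≠ M.x s0 i)
    (hμ2 : ∀ s s', s ≠ s0 → s' ≠ s0 → M.x s (τ s) = M.x s' (τ s') → s = s') :
    ∃ S : Finset W, M.Side C τ ρ S ∧
      ((M.π 0 s0 ∈ S ∧ (C.filter fun s => ρ s = τ s + 1).card =
          (C.filter fun s => ρ s = τ s + 2).card + 3) ∨
       (M.π 0 s0 ∉ S ∧ (C.filter fun s => ρ s = τ s + 2).card =
          (C.filter fun s => ρ s = τ s + 1).card + 3)) := by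
  obtain ⟨S, hS⟩ := exists_side h
  have h1 := side_ineq' h hS hs0 hμ1 hμ2 fun s hs => ⟨s, hs, rfl⟩
  have h2 := side_ineq' h.symm hS.compl hs0 hμ1 hμ2 h.ex1
  have e1 : (C.filter fun s => τ s = ρ s + 2) = C.filter fun s => ρ s = τ s + 1 :=
    Finset.filter_congr fun s _ => by
      generalize τ s = a; generalize ρ s = b; revert a b; decide
  have e2 : (C.filter fun s => τ s = ρ s + 1) = C.filter fun s => ρ s = τ s + 2 :=
    Finset.filter_congr fun s _ => by
      generalize τ s = a; generalize ρ s = b; revert a b; decide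
  rw [e1, e2] at h2
  refine ⟨S, hS, ?_⟩
  by_cases h0 : M.π 0 s0 ∈ S
  · simp only [h0, if_true, Finset.mem_compl, not_true, if_false] at h1 h2
    exact Or.inl ⟨h0, by omega⟩
  · simp only [h0, if_false, Finset.mem_compl, not_false_iff, if_true] at h1 h2
    exact Or.inr ⟨h0, by omega⟩

end PM

end Vale.Agent.P039
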