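import Vale.Agent.P039.Cut

namespace Vale.Agent.P039

open Finset

universe u

variable {B W V : Type u} [Fintype B] [Fintype W] [Fintype V] [DecidableEq B] [DecidableEq W]
  [DecidableEq V]

/-- A perfect matching whose complement is connected. -/
def Good (π : ZMod 3 → B ≃ W) (m : B → ZMod 3) : Prop :=
  (Function.Injective fun s => π (m s) s) ∧
    ∀ (P : B → Prop) (Q : W → Prop), (∀ s i, i ≠ m s → (P s ↔ Q (π i s))) → ∀ s s', P s → P s'

namespace CutData

variable {M : PM0 B W V} (D : CutData M)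

def glue (m1 : {s // s ∈ D.P} → ZMod 3) (m2 : Option {s // s ∉ D.P} → ZMod 3) (s : B) : ZMod 3 :=
  if h : s ∈ D.P then m1 ⟨s, h⟩ else m2 (some ⟨s, h⟩)

omit [DecidableEq V] in
theorem good_glue {m1 : {s // s ∈ D.P} → ZMod 3} {m2 : Option {s // s ∉ D.P} → ZMod 3}
    (h1 : Good D.π1 m1) (h2 : Good D.π2 m2) (h3 : m1 ⟨D.e (m2 none), D.eP _⟩ = m2 none) :
    Good M.π (D.glue m1 m2) := by
  classical
  set j := m2 none with hj
  have g1 : ∀ s (h : s ∈ D.P), D.glue m1 m2 s = m1 ⟨s, h⟩ := fun s h => dif_pos h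
  have g2 : ∀ s (h : s ∉ D.P), D.glue m1 m2 s = m2 (some ⟨s, h⟩) := fun s h => dif_neg h
  have k1 : ∀ s : {s // s ∈ D.P}, M.π (m1 s) s ∉ D.Q → s = ⟨D.e j, D.eP _⟩ := fun s hs =>
    h1.1 (D.π1_eq.2 (Or.inr ⟨hs, by rw [h3]; exact D.eQ j⟩))
  have k2 : ∀ i, D.glue m1 m2 (D.e i) = i → i = j := by
    intro i hi
    rw [g1 _ (D.eP i)] at hi
    rw [← hi, k1 ⟨D.e i, D.eP i⟩ (by rw [hi]; exact D.eQ i), h3]
  have mixed : ∀ s s', s ∈ D.P → s' ∉ D.P →
      M.π (D.glue m1 m2 s) s ≠ M.π (D.glue m1 m2 s') s' := by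
    intro s s' hs hs' e
    rw [g1 s hs, g2 s' hs'] at e
    have a1 := k1 ⟨s, hs⟩ (e ▸ D.out hs' _)
    rw [a1, h3, show s = D.e j from congrArg Subtype.val a1] at e
    exact absurd (h2.1 (Subtype.ext e : D.π2 (m2 none) none = D.π2 _ (some ⟨s', hs'⟩)))
      (by simp)
  have inj : Function.Injective fun s => M.π (D.glue m1 m2 s) s := by
    intro s s' e
    by_cases c : s ∈ D.P <;> by_cases c' : s' ∈ D.P
    · simp only [g1 s c, g1 s' c'] at e
      exact congrArg Subtype.val (h1.1 (D.π1_eq.2 (Or.inl e)) : (⟨s, c⟩ : {s // s ∈ D.P}) = ⟨s', c'⟩)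
    · exact absurd e (mixed s s' c c')
    · exact absurd e.symm (mixed s' s c' c)
    · simp only [g2 s c, g2 s' c'] at e
      have := h2.1 (Subtype.ext e : D.π2 _ (some ⟨s, c⟩) = D.π2 _ (some ⟨s', c'⟩))
      simpa using this
  refine ⟨inj, fun A C hcl => ?_⟩
  have claim : A (D.e (j + 1)) ↔ A (D.e (j + 2)) := by
    let S := D.Q.filter C
    have a1 := M.card_whites S
    have a2 : ∑ s, (if M.π (D.glue m1 m2 s) s ∈ S then (1 : ℤ) else 0) = S.card := by
      rw [Fintype.sum_bijective _ ((Fintype.bijective_iff_injective_and_card _).2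
        ⟨inj, M.cardW.symm⟩) (fun s => if M.π (D.glue m1 m2 s) s ∈ S then (1 : ℤ) else 0)
        (fun w => if w ∈ S then (1 : ℤ) else 0) (fun _ => rfl)]
      simp
    have a3 : ∀ s i, i ≠ D.glue m1 m2 s → (if s ∈ D.P ∧ A s then (1 : ℤ) else 0) =
        (if M.π i s ∈ S then 1 else 0) +
        (if s = D.e i then (if i ≠ D.glue m1 m2 s ∧ A s then 1 else 0) else 0) := by
      intro s i hi
      simp only [S, Finset.mem_filter, ← hcl s i hi]
      by_cases c : M.π i s ∈ D.Q
      · have : s ≠ D.e i := fun e => D.eQ i (e ▸ c)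
        simp [c, this, D.inn _ _ c]
      · by_cases c' : s ∈ D.P
        · simp [c, c', hi, ← D.uniq s i c' c]
        · have : s ≠ D.e i := fun e => c' (e ▸ D.eP i)
          simp [c, c', this]
    have a4 : ∀ s, 2 * (if s ∈ D.P ∧ A s then (1 : ℤ) else 0) +
        (if M.π (D.glue m1 m2 s) s ∈ S then (1 : ℤ) else 0) =
        ∑ i, (if M.π i s ∈ S then 1 else 0) +
        ∑ i, (if s = D.e i then (if i ≠ D.glue m1 m2 s ∧ A s then 1 else 0) else 0) := by
      intro s
      rw [sum3 _ (D.glue m1 m2 s), sum3 _ (D.glue m1 m2 s)]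
      have b1 := a3 s _ (n01 (D.glue m1 m2 s)).symm
      have b2 := a3 s _ (n02 (D.glue m1 m2 s)).symm
      simp only [ne_eq, not_true, false_and, if_false, ite_self] at b1 b2 ⊢
      linarith
    have a5 := Finset.sum_congr (rfl : (univ : Finset B) = univ) fun s _ => a4 s
    rw [Finset.sum_add_distrib, Finset.sum_add_distrib, ← Finset.mul_sum, a1, a2,
      Finset.sum_comm, sum3 _ j] at a5
    have b0 : D.glue m1 m2 (D.e j) = j := by rw [g1 _ (D.eP j), h3]
    have b1 : j + 1 ≠ D.glue m1 m2 (D.e (j + 1)) := fun e => n01 j (k2 _ e.symm).symm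
    have b2 : j + 2 ≠ D.glue m1 m2 (D.e (j + 2)) := fun e => n02 j (k2 _ e.symm).symm
    simp only [Finset.sum_ite_eq', Finset.mem_univ, if_true, b0, ne_eq, not_true, false_and,
      if_false, b1, b2, not_false_iff, true_and] at a5
    split_ifs at a5 with c1 c2 c2
    · exact iff_of_true c1 c2
    · omega
    · omega
    · exact iff_of_false c1 c2
  have claim' : ∀ i, i ≠ j → (A (D.e i) ↔ A (D.e (j + 1))) := by
    intro i hi
    rcases cases3 i j with e | e | e
    · exact absurd e hi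
    · rw [e]
    · rw [e, claim]
  have c1 := h1.2 (fun s => A s) (fun w => w.elim (A (D.e (j + 1))) fun w => C w) (by
    intro s i hi
    by_cases c : M.π i s ∈ D.Q
    · rw [D.π1_in c]
      exact hcl s i (by rwa [g1 _ s.2])
    · rw [D.π1_out c]
      have e := D.uniq _ _ s.2 c
      rw [e]
      refine claim' i fun e' => hi ?_
      rw [show s = ⟨D.e j, D.eP _⟩ from Subtype.ext (e' ▸ e), h3, e'])
  have c2 := h2.2 (fun b => b.elim (A (D.e (j + 1))) fun s => A s) (fun w => C w) (by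
    intro b i hi
    cases b with
    | none =>
      exact (claim' i hi).symm.trans (hcl _ i fun e => hi (k2 i e.symm))
    | some s => exact hcl s i (by rwa [g2 _ s.2]))
  have : ∀ s, A s ↔ A (D.e (j + 1)) := by
    intro s
    by_cases c : s ∈ D.P
    · exact ⟨c1 ⟨s, c⟩ ⟨_, D.eP _⟩, c1 ⟨_, D.eP _⟩ ⟨s, c⟩⟩
    · exact ⟨c2 (some ⟨s, c⟩) none, c2 none (some ⟨s, c⟩)⟩
  intro s s' h
  exact (this s').2 ((this s).1 h)

end CutData

omit [DecidableEq V] in
theorem cut_of_count (M : PM0 B W V) (P : Finset B) (Q : Finset W)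
    (h1 : ∀ i, (univ.filter fun s => s ∈ P ∧ M.π i s ∉ Q).card = 1)
    (h2 : ∀ i, (univ.filter fun s => s ∉ P ∧ M.π i s ∈ Q).card = 0) :
    ∃ D : CutData M, D.P = P ∧ D.Q = Q := by
  choose e he using fun i => Finset.card_eq_one.1 (h1 i)
  have : ∀ i s, s ∈ P ∧ M.π i s ∉ Q ↔ s = e i := fun i s => by
    rw [← Finset.mem_singleton, ← he]; simp
  refine ⟨⟨P, Q, e, fun i => ((this i _).2 rfl).1, fun i => ((this i _).2 rfl).2,
    fun s i a b => (this i s).1 ⟨a, b⟩, fun s i h => ?_⟩, rfl, rfl⟩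
  by_contra c
  have := Finset.card_eq_zero.1 (h2 i)
  exact Finset.eq_empty_iff_forall_notMem.1 this s (by simp [c, h])

omit [DecidableEq V] in
theorem exists_cut (M : PM B W V) (h : ¬M.Four) :
    ∃ D : CutData M.toPM0, 2 ≤ D.P.card ∧ D.P.card < Fintype.card B := by
  simp only [PM.Four, not_forall, not_or, not_le] at h
  obtain ⟨P, Q, h1, h2, h3⟩ := h
  let o := fun i => (univ.filter fun s => s ∈ P ∧ M.π i s ∉ Q).card
  let n := fun i => (univ.filter fun s => s ∉ P ∧ M.π i s ∈ Q).card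
  have a1 : ∀ i, P.card + n i = Q.card + o i := by
    intro i
    have e1 : Q.card = (univ.filter fun s => M.π i s ∈ Q).card :=
      (Finset.card_equiv (M.π i) (by simp)).symm
    have e2 : P.card = (univ.filter fun s => s ∈ P).card := by simp
    rw [e1, e2]
    simp only [o, n, Finset.card_filter, ← Finset.sum_add_distrib]
    refine Finset.sum_congr rfl fun s _ => ?_
    by_cases c1 : s ∈ P <;> by_cases c2 : M.π i s ∈ Q <;> simp [c1, c2]
  have a2 : (univ.filter fun e : B × ZMod 3 => ¬(e.1 ∈ P ↔ M.π e.2 e.1 ∈ Q)).card =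
      ∑ i, (o i + n i) := by
    simp only [o, n, Finset.card_filter, ← Finset.sum_add_distrib]
    rw [Fintype.sum_prod_type_right]
    refine Finset.sum_congr rfl fun i _ => Finset.sum_congr rfl fun s _ => ?_
    by_cases c1 : s ∈ P <;> by_cases c2 : M.π i s ∈ Q <;> simp [c1, c2]
  have a3 := M.conn3 P Q (by rw [← Finset.card_pos, ← Finset.card_pos]; omega)
    (by rw [← Finset.card_pos, ← Finset.card_pos]; omega)
  rw [a2, sum3 _ 0] at h1 a3
  have b0 := a1 0
  have b1 := a1 (0 + 1)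
  have b2 := a1 (0 + 2)
  have c1 := Finset.card_compl P
  have c2 := Finset.card_compl Q
  have c3 := Finset.card_le_univ P
  have c4 := Finset.card_le_univ Q
  have c5 := M.cardW
  by_cases c : Q.card < P.card
  · obtain ⟨D, d1, -⟩ := cut_of_count M.toPM0 P Q (fun i => by
      change o i = 1
      rcases cases3 i 0 with rfl | rfl | rfl <;> omega) (fun i => by
      change n i = 0
      rcases cases3 i 0 with rfl | rfl | rfl <;> omega)
    exact ⟨D, by rw [d1]; omega⟩
  · obtain ⟨D, d1, -⟩ := cut_of_count M.toPM0 Pᶜ Qᶜ (fun i => by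
      simp only [Finset.mem_compl, not_not]
      change n i = 1
      rcases cases3 i 0 with rfl | rfl | rfl <;> omega) (fun i => by
      simp only [Finset.mem_compl, not_not]
      change o i = 0
      rcases cases3 i 0 with rfl | rfl | rfl <;> omega)
    exact ⟨D, by rw [d1]; omega⟩

theorem good_all (n : ℕ) : ∀ (B W V : Type u) [Fintype B] [Fintype W] [Fintype V] [DecidableEq B]
    [DecidableEq W] [DecidableEq V] (M : PM B W V), Fintype.card B = n → ∀ s0 i0,
    ∃ m : B → ZMod 3, m s0 = i0 ∧ Good M.π m := by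
  induction n using Nat.strong_induction_on with
  | _ n ih =>
  intro B W V _ _ _ _ _ _ M hn s0 i0
  by_cases h2 : Fintype.card B ≤ 1
  · have := Fintype.card_le_one_iff.1 h2
    exact ⟨fun _ => i0, rfl, fun s s' _ => this s s', fun P Q _ s s' h => this s s' ▸ h⟩
  by_cases h4 : M.Four
  · exact PM.good_four h4 (by omega) s0 i0
  obtain ⟨D, d1, d2⟩ := exists_cut M h4
  have a1 := D.M1.cardV_le
  have a2 := D.M2.cardV_le
  have a3 := D.card_U
  have a4 := D.cardB2
  have a5 := M.card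
  rw [Fintype.card_coe, Fintype.card_coe] at a1
  rw [Fintype.card_coe] at a2
  have i1 := ih _ (by rw [Fintype.card_coe]; omega) _ _ _
    ⟨D.M1, by rw [Fintype.card_coe, Fintype.card_coe]; omega⟩ rfl
  have i2 := ih _ (by omega) _ _ _ ⟨D.M2, by rw [Fintype.card_coe]; omega⟩ rfl
  by_cases c : s0 ∈ D.P
  · obtain ⟨m1, b1, b2⟩ := i1 ⟨s0, c⟩ i0
    obtain ⟨s, hs⟩ := ((Fintype.bijective_iff_injective_and_card _).2
      ⟨b2.1, D.M1.cardW.symm⟩).2 none
    obtain ⟨m2, b3, b4⟩ := i2 none (m1 s)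
    refine ⟨D.glue m1 m2, (dif_pos c).trans b1, D.good_glue b2 b4 ?_⟩
    rw [b3]
    congr 1
    exact (D.π1 (m1 s)).injective ((D.π1_out (D.eQ _)).trans hs.symm)
  · obtain ⟨m2, b3, b4⟩ := i2 (some ⟨s0, c⟩) i0
    obtain ⟨m1, b1, b2⟩ := i1 ⟨D.e (m2 none), D.eP _⟩ (m2 none)
    exact ⟨D.glue m1 m2, (dif_neg c).trans b3, D.good_glue b2 b4 b1⟩

end Vale.Agent.P039
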