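import Vale.Agent.P039.Glue
import Vale.Agent.Planar.Defs

namespace Vale.Agent.P039

open Finset SimpleGraph Vale.Agent.Planar

universe u

variable {V : Type u} [Fintype V] [DecidableEq V] {G : SimpleGraph V} [DecidableRel G.Adj]

theorem cut3 (hc : ∀ v, G.degree v = 3)
    (h3 : ∀ S : Finset V, S.card ≤ 2 → (G.induce ((↑S : Set V)ᶜ)).Connected)
    (X : Finset V) (h1 : X.Nonempty) (h2 : Xᶜ.Nonempty) :
    3 ≤ (univ.filter fun d : G.Dart => d.fst ∈ X ∧ d.snd ∉ X).card := by
  by_contra hlt
  set C := univ.filter fun d : G.Dart => d.fst ∈ X ∧ d.snd ∉ X with hC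
  let A := C.image fun d => d.fst
  have hA : A.card ≤ 2 := Finset.card_image_le.trans (by omega)
  have hAX : A ⊆ X := by
    intro v hv
    obtain ⟨d, hd, rfl⟩ := Finset.mem_image.1 hv
    exact (Finset.mem_filter.1 hd).2.1
  have hXA : X ⊆ A := by
    intro v hv
    by_contra hvA
    obtain ⟨w, hw⟩ := h2
    have hw' : w ∉ X := Finset.mem_compl.1 hw
    obtain ⟨p⟩ := (h3 A hA).preconnected ⟨v, by simpa using hvA⟩
      ⟨w, by simpa using fun h => hw' (hAX h)⟩
    have : ∀ (a b : ((↑A : Set V)ᶜ : Set V)) (_ : (G.induce ((↑A : Set V)ᶜ)).Walk a b),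
        a.1 ∈ X → b.1 ∈ X := by
      intro a b p
      induction p with
      | nil => exact id
      | @cons a b c h p ih =>
        intro ha
        refine ih ?_
        by_contra hb
        exact a.2 (Finset.mem_coe.2 (Finset.mem_image.2
          ⟨⟨(a.1, b.1), h⟩, Finset.mem_filter.2 ⟨mem_univ _, ha, hb⟩, rfl⟩))
    exact hw' (this _ _ p hv)
  have hX2 : X.card ≤ 2 := (Finset.card_le_card hXA).trans hA
  have e1 : (univ.filter fun d : G.Dart => d.fst ∈ X).card = 3 * X.card := by
    rw [Finset.card_eq_sum_card_fiberwise (f := fun d : G.Dart => d.fst) (t := X)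
      (fun d hd => by simpa using hd), Finset.card_eq_sum_ones X, Finset.mul_sum]
    refine Finset.sum_congr rfl fun v hv => ?_
    rw [mul_one, ← hc v, ← G.dart_fst_fiber_card_eq_degree v]
    congr 1
    ext d
    simp only [Finset.mem_filter, Finset.mem_univ, true_and, and_iff_right_iff_imp]
    rintro rfl
    exact hv
  have e2 : ((univ.filter fun d : G.Dart => d.fst ∈ X).filter fun d => d.snd ∈ X).card ≤
      X.offDiag.card := Finset.card_le_card_of_injOn (fun d => d.toProd) (fun d hd => by
        simp only [Finset.coe_filter, Finset.mem_filter, Finset.mem_univ, true_and,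
          Set.mem_ofPred_eq] at hd
        exact Finset.mem_coe.2 (Finset.mem_offDiag.2 ⟨hd.1, hd.2, d.fst_ne_snd⟩))
      Dart.toProd_injective.injOn
  have e3 := Finset.card_filter_add_card_filter_not
    (s := univ.filter fun d : G.Dart => d.fst ∈ X) fun d => d.snd ∈ X
  rw [Finset.filter_filter (fun d : G.Dart => d.fst ∈ X) (fun d => ¬d.snd ∈ X), ← hC] at e3
  rw [Finset.offDiag_card] at e2
  have := Finset.card_pos.2 h1
  interval_cases X.card <;> omega

theorem const_of (hc : ∀ v, G.degree v = 3)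
    (h3 : ∀ S : Finset V, S.card ≤ 2 → (G.induce ((↑S : Set V)ᶜ)).Connected) {K : Type*}
    (g : V → K) (h : ∀ d : G.Dart, g d.fst = g d.snd) (u v : V) : g u = g v := by
  classical
  by_contra hne
  have := cut3 hc h3 (univ.filter fun w => g w = g u) ⟨u, by simp⟩ ⟨v, by simpa using Ne.symm hne⟩
  rw [Finset.filter_false_of_mem] at this
  · simp at this
  · intro d _
    simp [h d]

omit [Fintype V] [DecidableEq V] [DecidableRel G.Adj] in
theorem orbit_ind {α : Type*} [Finite α] {φ : Equiv.Perm α} {R : α → Prop}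
    (h : ∀ d, R d → R (φ d)) {d e : α} (hs : φ.SameCycle d e) (hd : R d) : R e := by
  obtain ⟨k, -, rfl⟩ := hs.exists_pow_eq'
  induction k with
  | zero => exact hd
  | succ k ih =>
    rw [pow_succ', Equiv.Perm.mul_apply]
    exact h _ (ih ⟨k, rfl⟩)

theorem exists_label (hc : ∀ v, G.degree v = 3) (ρ : Equiv.Perm G.Dart)
    (h1 : ∀ d, (ρ d).fst = d.fst) (h2 : ∀ d e, d.fst = e.fst → ρ.SameCycle d e) :
    ∃ l : G.Dart → ZMod 3, (∀ d, l (ρ d) = l d + 1) ∧
      (∀ d e, d.fst = e.fst → l d = l e → d = e) ∧ ∀ v i, ∃ d, d.fst = v ∧ l d = i := by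
  have fib : ∀ v, (univ.filter fun d : G.Dart => d.fst = v).card = 3 := fun v => by
    rw [G.dart_fst_fiber_card_eq_degree, hc]
  have a2 : ∀ d, ρ (ρ d) ≠ d := by
    intro d e
    have : (univ.filter fun x : G.Dart => x.fst = d.fst) ⊆ {d, ρ d} := by
      intro x hx
      refine orbit_ind (R := fun x => x ∈ ({d, ρ d} : Finset G.Dart)) (fun y hy => ?_)
        (h2 d x (Finset.mem_filter.1 hx).2.symm) (by simp)
      simp only [Finset.mem_insert, Finset.mem_singleton] at hy ⊢
      rcases hy with rfl | rfl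
      · exact Or.inr rfl
      · exact Or.inl e
    have := (Finset.card_le_card this).trans Finset.card_le_two
    rw [fib] at this
    omega
  have a1 : ∀ d, ρ d ≠ d := fun d e => a2 d (by rw [e, e])
  have a3 : ∀ d e, e.fst = d.fst → e = d ∨ e = ρ d ∨ e = ρ (ρ d) := by
    intro d e he
    have : ({d, ρ d, ρ (ρ d)} : Finset G.Dart) = univ.filter fun x : G.Dart => x.fst = d.fst := by
      apply Finset.eq_of_subset_of_card_le
      · intro x hx
        simp only [Finset.mem_insert, Finset.mem_singleton] at hx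
        rcases hx with rfl | rfl | rfl <;> simp [h1]
      · rw [fib, Finset.card_eq_three.2 ⟨_, _, _, (a1 d).symm, (a2 d).symm, (a1 _).symm, rfl⟩]
    have h : e ∈ ({d, ρ d, ρ (ρ d)} : Finset G.Dart) := by rw [this]; simpa
    simpa using h
  have a4 : ∀ d, ρ (ρ (ρ d)) = d := by
    intro d
    rcases a3 d (ρ (ρ (ρ d))) (by simp [h1]) with e | e | e
    · exact e
    · exact absurd e (a2 _)
    · exact absurd e (a1 _)
  have : ∀ v, ∃ d : G.Dart, d.fst = v := fun v => by
    obtain ⟨d, hd⟩ := Finset.card_pos.1 (by rw [fib v]; norm_num :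
      0 < (univ.filter fun d : G.Dart => d.fst = v).card)
    exact ⟨d, (Finset.mem_filter.1 hd).2⟩
  choose b hb using this
  let l : G.Dart → ZMod 3 := fun d => if d = b d.fst then 0 else if d = ρ (b d.fst) then 1 else 2
  have l0 : ∀ v, l (b v) = 0 := fun v => by simp [l, hb]
  have l1 : ∀ v, l (ρ (b v)) = 1 := fun v => by simp [l, hb, h1, a1]
  have l2 : ∀ v, l (ρ (ρ (b v))) = 2 := fun v => by simp [l, hb, h1, a1, a2]
  refine ⟨l, fun d => ?_, fun d e h h' => ?_, fun v i => ?_⟩
  · rcases a3 (b d.fst) d (hb _).symm with e | e | e <;> rw [e]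
    · rw [l0, l1]; rfl
    · rw [l1, l2]; rfl
    · rw [a4, l0, l2]; rfl
  · rcases a3 (b d.fst) d (hb _).symm with e1 | e1 | e1 <;>
      rcases a3 (b d.fst) e (by rw [hb, h]) with e2 | e2 | e2 <;>
      first
      | exact e1.trans e2.symm
      | (rw [e1, e2] at h'; simp only [l0, l1, l2] at h'; exact absurd h' (by decide))
  · rcases cases3 i 0 with rfl | rfl | rfl
    · exact ⟨b v, hb v, l0 v⟩
    · exact ⟨ρ (b v), by rw [h1, hb], l1 v⟩
    · exact ⟨ρ (ρ (b v)), by rw [h1, h1, hb], l2 v⟩

omit [DecidableEq V] in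
theorem sum_split {K : Type*} [AddCommMonoid K] (bl : V → Prop) [DecidablePred bl]
    (hbl : ∀ d : G.Dart, bl d.fst ↔ ¬bl d.snd) (f : G.Dart → K) :
    ∑ d, f d = ∑ e : {d : G.Dart // bl d.fst}, (f e + f e.1.symm) := by
  rw [Finset.sum_add_distrib, ← Fintype.sum_subtype_add_sum_subtype (fun d : G.Dart => bl d.fst)]
  congr 1
  symm
  refine Fintype.sum_equiv ((dartSymmPerm G).subtypeEquiv fun d => ?_) _ _ fun _ => rfl
  exact hbl d

theorem exists_colour (hc : ∀ v, G.degree v = 3)
    (h3 : ∀ S : Finset V, S.card ≤ 2 → (G.induce ((↑S : Set V)ᶜ)).Connected) [Nonempty V]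
    (bl : V → Prop) [DecidablePred bl] (hbl : ∀ d : G.Dart, bl d.fst ↔ ¬bl d.snd)
    (ρ : Equiv.Perm G.Dart)
    (h1 : ∀ d, (ρ d).fst = d.fst) (h2 : ∀ d e, d.fst = e.fst → ρ.SameCycle d e)
    (hE : G.edgeFinset.card + 2 ≤ Fintype.card V +
      Nat.card (Quotient (Equiv.Perm.SameCycle.setoid (ρ * dartSymmPerm G)))) :
    ∃ κ : G.Dart → ZMod 3, (∀ d, κ d.symm = κ d) ∧
      (∀ d, κ (ρ d) = κ d + if bl d.fst then 1 else 2) ∧
      (∀ d e, d.fst = e.fst → κ d = κ e → d = e) ∧ ∀ v i, ∃ d, d.fst = v ∧ κ d = i := by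
  classical
  obtain ⟨l, l1, l2, l3⟩ := exists_label hc ρ h1 h2
  let φ := ρ * dartSymmPerm G
  let F := Quotient (Equiv.Perm.SameCycle.setoid φ)
  let _ : Fintype F := Fintype.ofFinite F
  let face : G.Dart → F := Quotient.mk _
  have fφ : ∀ d, face (φ d) = face d := fun d => Quotient.sound ⟨-1, by simp⟩
  have φ1 : ∀ d, (φ d).fst = d.snd := fun d => h1 _
  let sg : V → ZMod 3 := fun v => if bl v then 1 else 2
  have sg1 : ∀ d : G.Dart, sg d.fst = -sg d.snd := by
    intro d
    simp only [sg, hbl d]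
    split_ifs <;> rfl
  have sg2 : ∀ v, sg v * sg v = 1 := fun v => by
    simp only [sg]
    split_ifs <;> rfl
  let l' : G.Dart → ZMod 3 := fun d => sg d.fst * l d
  have re : ∀ (g : G.Dart → ZMod 3) (a : F → ZMod 3),
      ∑ d, g (φ d) * a (face d) = ∑ d, g d * a (face d) := fun g a =>
    Fintype.sum_equiv φ _ _ fun d => by rw [fφ]
  have anti : ∀ (z : G.Dart → ZMod 3) (a : F → ZMod 3), (∀ d, z d.symm = -z d) →
      ∑ e : {d : G.Dart // bl d.fst}, z e * (a (face e) - a (face e.1.symm)) =
      ∑ d, z d * a (face d) := by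
    intro z a hz
    rw [sum_split bl hbl]
    exact Finset.sum_congr rfl fun e _ => by rw [hz]; ring
  let C : Cx (ZMod 3) V {d : G.Dart // bl d.fst} F :=
    ⟨fun e => e.1.snd, fun e => e.1.fst, fun e => face e.1.symm, fun e => face e, fun g a => by
      rw [anti (fun d => g d.snd - g d.fst) a fun d => by simp [Dart.symm]]
      simp only [sub_mul, Finset.sum_sub_distrib]
      rw [← re (fun d => g d.fst) a]
      simp only [φ1, sub_self]⟩
  have both : ∀ R : G.Dart → Prop, (∀ e : {d : G.Dart // bl d.fst}, R e ∧ R e.1.symm) →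
      ∀ d, R d := by
    intro R h d
    by_cases c : bl d.fst
    · exact (h ⟨d, c⟩).1
    · simpa using (h ⟨d.symm, by by_contra c'; exact c ((hbl d).2 c')⟩).2
  obtain ⟨t, ht⟩ := C.exact
    (fun g hg => const_of hc h3 g (both _ fun e => ⟨(hg e).symm, hg e⟩))
    (fun a ha => by
      have a1 : ∀ d, a (face d) = a (face d.symm) :=
        both _ fun e => ⟨ha e, by simpa using (ha e).symm⟩
      have a2 : ∀ d, a (face (ρ d)) = a (face d) := fun d => by
        rw [a1 d, ← fφ d.symm]; simp [φ]
      choose b hb using fun v => l3 v 0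
      have a3 : ∀ d, a (face d) = a (face (b d.fst)) := fun d =>
        orbit_ind (R := fun x => a (face x) = a (face (b d.fst))) (fun y hy => by rw [a2, hy])
          (h2 _ _ (hb _).1) rfl
      have a4 := const_of hc h3 (fun v => a (face (b v))) fun d => by
        rw [← a3, a1, a3]; rfl
      intro x y
      obtain ⟨d, rfl⟩ := Quotient.exists_rep x
      obtain ⟨e, rfl⟩ := Quotient.exists_rep y
      exact (a3 d).trans ((a4 _ _).trans (a3 e).symm))
    (by
      have := sum_split bl hbl fun _ => (1 : ℕ)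
      simp only [Finset.sum_const, Finset.card_univ, smul_eq_mul, G.dart_card_eq_twice_card_edges]
        at this
      rw [Nat.card_eq_fintype_card (α := F)] at hE
      omega) (Classical.arbitrary V) (fun e => l' e - l' e.1.symm) (fun a => by
      refine (anti (fun d => l' d - l' d.symm) a fun d => by simp).trans ?_
      have b1 : ∑ d, (l' d - l' d.symm) * a (face d) = ∑ d : G.Dart, sg d.snd * a (face d) := by
        simp only [sub_mul, Finset.sum_sub_distrib]
        rw [← re l' a, ← Finset.sum_sub_distrib]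
        refine Finset.sum_congr rfl fun d _ => ?_
        have : l' (φ d) = l' d.symm + sg d.snd := by
          simp only [l', φ1]
          rw [show φ d = ρ d.symm from rfl, l1, mul_add, mul_one]; rfl
        rw [this]; ring
      have b2 := re (fun d => sg d.fst) a
      simp only [φ1] at b2
      have b3 : ∑ d : G.Dart, sg d.fst * a (face d) = -∑ d : G.Dart, sg d.snd * a (face d) := by
        simp only [sg1, neg_mul, Finset.sum_neg_distrib]
      rw [b1]
      rw [b3] at b2
      generalize ∑ d : G.Dart, sg d.snd * a (face d) = x at b2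
      revert x; decide)
  refine ⟨fun d => l' d + t d.fst, both _ fun e => ?_, fun d => ?_, fun d e h h' => ?_,
    fun v i => ?_⟩
  · have := ht e
    simp only [C] at this
    have e1 : l' e.1.symm + t e.1.symm.fst = l' e + t e.1.fst := by
      change l' e.1.symm + t e.1.snd = _
      linear_combination -this
    exact ⟨e1, by simpa using e1.symm⟩
  · simp only [l', h1, l1, sg]
    ring
  · refine l2 d e h ?_
    simp only [l', h, add_left_inj] at h'
    have := congrArg (sg e.fst * ·) h'
    simpa only [← mul_assoc, sg2, one_mul] using this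
  · obtain ⟨d, rfl, hd⟩ := l3 v (sg v * (i - t v))
    exact ⟨d, rfl, by simp only [l', hd, ← mul_assoc, sg2]; ring⟩

end Vale.Agent.P039
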