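import Vale.Agent.P039.PM

namespace Vale.Agent.P039

open Finset

universe u

def cnt (p : ZMod 3 → Prop) [DecidablePred p] : ℕ := ∑ i, if p i then 1 else 0

theorem cnt_le (p : ZMod 3 → Prop) [DecidablePred p] : cnt p ≤ 3 := by
  unfold cnt
  rw [sum3 _ 0]
  split_ifs <;> simp

theorem cnt_pairs (p : ZMod 3 → Prop) [DecidablePred p] :
    (∑ i, if p (i + 1) ∧ p (i + 2) then 1 else 0) = (cnt p).choose 2 := by
  unfold cnt
  rw [sum3 _ 0, sum3 _ 0]
  simp only [z11, z12, z21, z22]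
  by_cases h0 : p 0 <;> by_cases h1 : p (0 + 1) <;> by_cases h2 : p (0 + 2) <;>
    simp only [h0, h1, h2] <;> decide

theorem cnt_one (p : ZMod 3 → Prop) [DecidablePred p] :
    (∑ i, if p i ∧ ¬p (i + 1) ∧ ¬p (i + 2) then 1 else 0) = if cnt p = 1 then 1 else 0 := by
  unfold cnt
  rw [sum3 _ 0, sum3 _ 0]
  simp only [z11, z12, z21, z22]
  by_cases h0 : p 0 <;> by_cases h1 : p (0 + 1) <;> by_cases h2 : p (0 + 2) <;>
    simp only [h0, h1, h2] <;> decide

theorem cnt_congr {p q : ZMod 3 → Prop} [DecidablePred p] [DecidablePred q]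
    (h : ∀ i, p i ↔ q i) : cnt p = cnt q :=
  Finset.sum_congr rfl fun i _ => if_congr (h i) rfl rfl

theorem cnt_zero {p : ZMod 3 → Prop} [DecidablePred p] : cnt p = 0 ↔ ∀ i, ¬p i := by
  simp [cnt]

theorem cnt_three {p : ZMod 3 → Prop} [DecidablePred p] : cnt p = 3 ↔ ∀ i, p i := by
  constructor
  · intro h i
    unfold cnt at h
    rw [sum3 _ i] at h
    split_ifs at h <;> simp_all
  · intro h
    simp [cnt, h]

theorem cnt_le_one {p : ZMod 3 → Prop} [DecidablePred p] (i : ZMod 3) (h1 : ¬p (i + 1))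
    (h2 : ¬p (i + 2)) : cnt p ≤ 1 := by
  unfold cnt
  rw [sum3 _ i]
  split_ifs <;> simp_all

def N {α : Type*} [Fintype α] (j : α → ℕ) (k : ℕ) : ℕ := (univ.filter fun a => j a = k).card

theorem sum_fib {α : Type*} [Fintype α] (j : α → ℕ) (hj : ∀ a, j a ≤ 3) (f : ℕ → ℕ) :
    ∑ a, f (j a) = f 0 * N j 0 + f 1 * N j 1 + f 2 * N j 2 + f 3 * N j 3 := by
  simp only [N, Finset.card_filter, Finset.mul_sum, ← Finset.sum_add_distrib]
  refine Finset.sum_congr rfl fun a _ => ?_
  have := hj a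
  interval_cases j a <;> simp

namespace PM

variable {B W V : Type u} [Fintype B] [Fintype W] [Fintype V] [DecidableEq B] [DecidableEq W]
  [DecidableEq V] (M : PM B W V)

def y (w : W) (i : ZMod 3) : V := M.x ((M.π (i + 1)).symm w) i

omit [DecidableEq V] in
theorem y1 (s : B) (i : ZMod 3) : M.y (M.π (i + 1) s) i = M.x s i := by simp [y]

omit [DecidableEq V] in
theorem y2 (s : B) (i : ZMod 3) : M.y (M.π (i + 2) s) i = M.x s i :=
  M.inv _ _ _ (by simp)

omit [DecidableEq V] in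
theorem y1' (s : B) (i : ZMod 3) : M.y (M.π i s) (i + 1) = M.x s (i + 1) := by
  have := M.y2 s (i + 1); rwa [z12] at this

omit [DecidableEq V] in
theorem y2' (s : B) (i : ZMod 3) : M.y (M.π i s) (i + 2) = M.x s (i + 2) := by
  have := M.y1 s (i + 2); rwa [z21] at this

def jb (U : Finset V) (s : B) : ℕ := cnt fun i => M.x s i ∈ U
def jw (U : Finset V) (w : W) : ℕ := cnt fun i => M.y w i ∈ U

omit [DecidableEq V] in
theorem sum_swap (f : W → ZMod 3 → ℕ) : ∑ s, ∑ i, f (M.π i s) i = ∑ w, ∑ i, f w i := by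
  rw [Finset.sum_comm, Finset.sum_comm (f := f)]
  exact Finset.sum_congr rfl fun i _ => Fintype.sum_equiv (M.π i) _ _ fun _ => rfl

theorem corners_eq (U : Finset V) : ∑ s, M.jb U s = ∑ w, M.jw U w := by
  simp only [jb, jw, cnt]
  rw [Finset.sum_comm, Finset.sum_comm (f := fun w i => if M.y w i ∈ U then 1 else 0)]
  exact Finset.sum_congr rfl fun i _ => Fintype.sum_equiv (M.π (i + 1)) _ _ fun s => by
    rw [M.y1]

theorem edges_eq (U : Finset V) :
    ∑ s, (M.jb U s).choose 2 = ∑ w, (M.jw U w).choose 2 := by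
  simp only [jb, jw, ← cnt_pairs]
  rw [← M.sum_swap fun w i => if M.y w (i + 1) ∈ U ∧ M.y w (i + 2) ∈ U then 1 else 0]
  simp only [M.y1', M.y2']

theorem cut_le (U : Finset V) :
    (univ.filter fun e : B × ZMod 3 => ¬(e.1 ∈ (univ.filter fun s => M.jb U s = 0) ↔
      M.π e.2 e.1 ∈ (univ.filter fun w => M.jw U w = 0))).card ≤
      N (M.jb U) 1 + N (M.jw U) 1 := by
  have a1 : N (M.jb U) 1 = ∑ s, ∑ i,
      if M.x s i ∈ U ∧ ¬M.x s (i + 1) ∈ U ∧ ¬M.x s (i + 2) ∈ U then 1 else 0 := by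
    rw [N, Finset.card_filter]
    exact Finset.sum_congr rfl fun s _ => (cnt_one fun i => M.x s i ∈ U).symm
  have a2 : N (M.jw U) 1 = ∑ w, ∑ i,
      if M.y w i ∈ U ∧ ¬M.y w (i + 1) ∈ U ∧ ¬M.y w (i + 2) ∈ U then 1 else 0 := by
    rw [N, Finset.card_filter]
    exact Finset.sum_congr rfl fun w _ => (cnt_one fun i => M.y w i ∈ U).symm
  rw [a1, a2, Finset.card_filter, ← M.sum_swap fun w i =>
    if M.y w i ∈ U ∧ ¬M.y w (i + 1) ∈ U ∧ ¬M.y w (i + 2) ∈ U then 1 else 0,
    Fintype.sum_prod_type, ← Finset.sum_add_distrib]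
  refine Finset.sum_le_sum fun s _ => ?_
  rw [← Finset.sum_add_distrib]
  refine Finset.sum_le_sum fun i _ => ?_
  have b1 : M.jb U s = 0 ↔ ∀ j, M.x s j ∉ U := cnt_zero
  have b2 : M.jw U (M.π i s) = 0 ↔ ∀ j, M.y (M.π i s) j ∉ U := cnt_zero
  simp only [Finset.mem_filter, Finset.mem_univ, true_and, b1, b2, M.y1', M.y2']
  have e1 : (∀ j, M.x s j ∉ U) ↔ M.x s i ∉ U ∧ M.x s (i + 1) ∉ U ∧ M.x s (i + 2) ∉ U :=
    ⟨fun h => ⟨h _, h _, h _⟩, fun h j => by
      rcases cases3 j i with rfl | rfl | rfl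
      exacts [h.1, h.2.1, h.2.2]⟩
  have e2 : (∀ j, M.y (M.π i s) j ∉ U) ↔
      M.y (M.π i s) i ∉ U ∧ M.x s (i + 1) ∉ U ∧ M.x s (i + 2) ∉ U :=
    ⟨fun h => ⟨h _, M.y1' s i ▸ h _, M.y2' s i ▸ h _⟩, fun h j => by
      rcases cases3 j i with rfl | rfl | rfl
      exacts [h.1, (M.y1' s i).symm ▸ h.2.1, (M.y2' s i).symm ▸ h.2.2]⟩
  simp only [e1, e2]
  by_cases h0 : M.x s i ∈ U <;> by_cases h1 : M.x s (i + 1) ∈ U <;>
    by_cases h2 : M.x s (i + 2) ∈ U <;> by_cases h3 : M.y (M.π i s) i ∈ U <;> simp [*]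

/-- No nontrivial edge cut with three edges. -/
def Four : Prop := ∀ (P : Finset B) (Q : Finset W),
  (univ.filter fun e : B × ZMod 3 => ¬(e.1 ∈ P ↔ M.π e.2 e.1 ∈ Q)).card ≤ 3 →
    P.card + Q.card ≤ 1 ∨ Pᶜ.card + Qᶜ.card ≤ 1

theorem hall_conn (h4 : M.Four) (s0 : B) (U : Finset V) (hU : U.Nonempty)
    (hc : ∀ (a : B → ℚ) (b : V → ℚ), (∀ s i, M.x s i ∈ U → b (M.x s i) = a s) →
      ∀ y ∈ U, ∀ y' ∈ U, b y = b y') :
    2 * U.card ≤ ∑ s, min 2 (M.jb U s) + (M.jb U s0 + if M.jb U s0 = 3 then 1 else 0) := by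
  have hb : ∀ s, M.jb U s ≤ 3 := fun s => cnt_le _
  have hw : ∀ w, M.jw U w ≤ 3 := fun w => cnt_le _
  have hV := M.cardV
  by_cases hu : U = univ
  · have : ∀ s, M.jb U s = 3 := fun s => cnt_three.2 fun i => by simp [hu]
    simp only [this]
    simp [hu, hV]
    omega
  obtain ⟨y0, hy0⟩ : ∃ y, y ∉ U := by
    by_contra h
    push Not at h
    exact hu (Finset.eq_univ_iff_forall.2 h)
  have hUc : U.card < Fintype.card V := Finset.card_lt_univ_of_notMem hy0
  obtain ⟨y1, hy1⟩ := hU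
  obtain ⟨s1, hs1⟩ := M.surj y1
  obtain ⟨s2, hs2⟩ := M.surj y0
  have key := M.euler (univ.filter fun w => M.jw U w = 3) (M.π (M.col y0 + 1) s2) (by
      simp only [Finset.mem_filter, Finset.mem_univ, true_and, jw, cnt_three, not_forall]
      exact ⟨M.col y0, by rw [M.y1, hs2]; exact hy0⟩)
    (univ.filter fun e => M.x e.1 e.2 ∈ U) (fun s i h => by
      simp only [Finset.mem_filter, Finset.mem_univ, true_and, jw, cnt_three] at h ⊢
      rcases h with h | h
      · rw [← M.y1]; exact h i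
      · rw [← M.y2]; exact h i)
    (univ.filter fun s => M.jb U s ≠ 0) U (fun a b h => by
      have h' : ∀ s i, M.x s i ∈ U → b (M.x s i) = a s := fun s i hh => h s i (by simpa)
      refine ⟨b y1, fun s hs => ?_, fun y hy => hc a b h' y hy y1 hy1⟩
      simp only [Finset.mem_filter, Finset.mem_univ, true_and, jb, ne_eq, cnt_zero, not_forall,
        not_not] at hs
      obtain ⟨i, hi⟩ := hs
      rw [← h' s i hi]
      exact hc a b h' _ hi y1 hy1)
  have e1 : (univ.filter fun e : B × ZMod 3 => M.x e.1 e.2 ∈ U).card = ∑ s, M.jb U s := by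
    rw [Finset.card_filter, Fintype.sum_prod_type]; rfl
  have e2 : (univ.filter fun s => M.jb U s ≠ 0).card = ∑ s, min 1 (M.jb U s) := by
    rw [Finset.card_filter]
    refine Finset.sum_congr rfl fun s _ => ?_
    split_ifs <;> omega
  have e3 := M.corners_eq U
  have e4 := M.edges_eq U
  have e5 := M.cut_le U
  have e6 := sum_fib _ hb fun _ => 1
  rw [e1, e2, sum_fib _ hb (min 1), show (univ.filter fun w => M.jw U w = 3).card =
    N (M.jw U) 3 from rfl] at key
  rw [sum_fib _ hb (min 2)]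
  have e7 := sum_fib _ hb id
  have e8 := sum_fib _ hw id
  rw [sum_fib _ hb (Nat.choose · 2), sum_fib _ hw (Nat.choose · 2)] at e4
  simp only [id] at e7 e8
  rw [e7] at key
  rw [e7, e8] at e3
  simp only [Finset.sum_const, Finset.card_univ, smul_eq_mul] at e6
  norm_num [Nat.choose] at e4 key e3 e6 ⊢
  have hP1 : s1 ∈ (univ.filter fun s => M.jb U s = 0)ᶜ := by
    simp only [Finset.mem_compl, Finset.mem_filter, Finset.mem_univ, true_and, jb, cnt_zero,
      not_forall, not_not]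
    exact ⟨_, by rw [hs1]; exact hy1⟩
  have small : N (M.jb U) 1 + N (M.jw U) 1 ≤ 2 → N (M.jb U) 0 = 0 := by
    intro h
    by_contra h0
    have := M.conn3 (univ.filter fun s => M.jb U s = 0) (univ.filter fun w => M.jw U w = 0)
      (Or.inl (Finset.card_pos.1 (Nat.pos_of_ne_zero h0))) (Or.inl ⟨s1, hP1⟩)
    omega
  have nz : N (M.jb U) 0 = 0 → M.jb U s0 ≠ 0 := by
    intro h h0
    have : 0 < N (M.jb U) 0 := Finset.card_pos.2 ⟨s0, by simpa using h0⟩
    omega
  by_cases c1 : 6 ≤ N (M.jb U) 1 + 2 * N (M.jw U) 1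
  · omega
  by_cases c2 : N (M.jb U) 1 = 0
  · have h0 := small (by omega)
    have h1 := nz h0
    have h2 : M.jb U s0 ≠ 1 := by
      intro h0
      have : 0 < N (M.jb U) 1 := Finset.card_pos.2 ⟨s0, by simpa using h0⟩
      omega
    omega
  by_cases c3 : N (M.jb U) 1 = 1
  · have h1 := nz (small (by omega))
    omega
  have c4 : N (M.jb U) 1 = 3 ∧ N (M.jw U) 1 = 0 := by omega
  have h1 : M.jb U s0 ≠ 0 := by
    intro h0
    rcases h4 (univ.filter fun s => M.jb U s = 0) (univ.filter fun w => M.jw U w = 0)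
      (by omega) with h | h
    · have a1 : 0 < (univ.filter fun s => M.jb U s = 0).card :=
        Finset.card_pos.2 ⟨s0, by simpa using h0⟩
      have a2 : M.jw U (M.π 0 s0) ≠ 0 := by
        intro h2
        have : 0 < (univ.filter fun w => M.jw U w = 0).card :=
          Finset.card_pos.2 ⟨M.π 0 s0, by simpa using h2⟩
        omega
      have a3 : M.jw U (M.π 0 s0) ≤ 1 := cnt_le_one 0
        (by rw [M.y1']; exact cnt_zero.1 h0 _) (by rw [M.y2']; exact cnt_zero.1 h0 _)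
      have : 0 < N (M.jw U) 1 := Finset.card_pos.2 ⟨M.π 0 s0, by simp; omega⟩
      omega
    · have : N (M.jb U) 1 ≤ ((univ.filter fun s => M.jb U s = 0)ᶜ).card :=
        Finset.card_le_card fun s hs => by
          simp only [Finset.mem_compl, Finset.mem_filter, Finset.mem_univ, true_and] at hs ⊢
          omega
      omega
  omega

theorem hall_ineq (h4 : M.Four) (s0 : B) (U : Finset V) :
    2 * U.card ≤ ∑ s, min 2 (M.jb U s) + (M.jb U s0 + if M.jb U s0 = 3 then 1 else 0) := by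
  induction U using Finset.strongInduction with
  | H U ih =>
  rcases U.eq_empty_or_nonempty with rfl | hU
  · simp
  by_cases hc : ∀ (a : B → ℚ) (b : V → ℚ), (∀ s i, M.x s i ∈ U → b (M.x s i) = a s) →
      ∀ y ∈ U, ∀ y' ∈ U, b y = b y'
  · exact M.hall_conn h4 s0 U hU hc
  push Not at hc
  obtain ⟨a, b, hab, y, hy, y', hy', hne⟩ := hc
  let U1 := U.filter fun z => b z = b y
  let U2 := U.filter fun z => ¬b z = b y
  have i1 := ih U1 (Finset.filter_ssubset.2 ⟨y', hy', fun h => hne h.symm⟩)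
  have i2 := ih U2 (Finset.filter_ssubset.2 ⟨y, hy, by simp⟩)
  have hcard : U1.card + U2.card = U.card := Finset.card_filter_add_card_filter_not _
  have key : ∀ s, (M.jb U1 s = M.jb U s ∧ M.jb U2 s = 0) ∨
      (M.jb U1 s = 0 ∧ M.jb U2 s = M.jb U s) := by
    intro s
    by_cases h : a s = b y
    · left
      refine ⟨cnt_congr fun i => ?_, cnt_zero.2 fun i hi => ?_⟩
      · simp only [U1, Finset.mem_filter, and_iff_left_iff_imp]
        intro hi; rw [hab s i hi, h]
      · simp only [U2, Finset.mem_filter] at hi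
        exact hi.2 (by rw [hab s i hi.1, h])
    · right
      refine ⟨cnt_zero.2 fun i hi => ?_, cnt_congr fun i => ?_⟩
      · simp only [U1, Finset.mem_filter] at hi
        exact h (by rw [← hab s i hi.1, hi.2])
      · simp only [U2, Finset.mem_filter, and_iff_left_iff_imp]
        intro hi; rw [hab s i hi]; exact h
  have e : ∑ s, min 2 (M.jb U s) = ∑ s, min 2 (M.jb U1 s) + ∑ s, min 2 (M.jb U2 s) := by
    rw [← Finset.sum_add_distrib]
    refine Finset.sum_congr rfl fun s _ => ?_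
    rcases key s with ⟨h1, h2⟩ | ⟨h1, h2⟩ <;> simp [h1, h2]
  rcases key s0 with ⟨h1, h2⟩ | ⟨h1, h2⟩ <;> rw [h1] at i1 <;> rw [h2] at i2 <;>
    simp only [show (0 : ℕ) ≠ 3 by decide, if_false] at i1 i2 <;> omega

omit [DecidableEq V] in
theorem π_ne (h2 : 2 ≤ Fintype.card B) (s : B) (i : ZMod 3) :
    M.π (i + 1) s ≠ M.π (i + 2) s := by
  intro h
  obtain ⟨s', hs'⟩ := Fintype.exists_ne_of_one_lt_card h2 s
  have := M.conn3 {s} {M.π (i + 1) s} (Or.inl (by simp)) (Or.inl ⟨s', by simpa⟩)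
  have h3 : (univ.filter fun e : B × ZMod 3 => ¬(e.1 ∈ ({s} : Finset B) ↔
      M.π e.2 e.1 ∈ ({M.π (i + 1) s} : Finset W))) ⊆
      {(s, i), ((M.π i).symm (M.π (i + 1) s), i)} := by
    rintro ⟨t, j⟩ ht
    simp only [Finset.mem_filter, Finset.mem_univ, true_and, Finset.mem_singleton,
      Finset.mem_insert, Prod.mk.injEq] at ht ⊢
    rcases cases3 j i with rfl | rfl | rfl
    · by_cases e : t = s
      · exact Or.inl ⟨e, rfl⟩
      · refine Or.inr ⟨?_, rfl⟩
        rw [Equiv.eq_symm_apply]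
        tauto
    · simp at ht
    · rw [h] at ht
      simp at ht
  have := (Finset.card_le_card h3).trans Finset.card_le_two
  omega

end PM

end Vale.Agent.P039
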