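import Vale.Agent.P039.Sum

namespace Vale.Agent.P039

open Finset

universe u

namespace PM

variable {B W V : Type u} [Fintype B] [Fintype W] [Fintype V] [DecidableEq B] [DecidableEq W]
  [DecidableEq V] {M : PM B W V}

omit [DecidableEq V] in
theorem good_fix {s0 : B} {ρ : B → ZMod 3} (hρ : M.Val s0 ρ) {σ : Equiv.Perm B}
    (h : ∀ s, M.x s (ρ (σ s)) = M.x (σ s) (ρ (σ s))) : σ s0 = s0 := by
  by_contra e
  exact hρ.2.1 _ e _ (h s0).symm

theorem sign_good {s0 : B} {ρ : B → ZMod 3} (hρ : M.Val s0 ρ) {σ : Equiv.Perm B}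
    (h : ∀ s, M.x s (ρ (σ s)) = M.x (σ s) (ρ (σ s))) : Equiv.Perm.sign σ = 1 := by
  rw [Equiv.Perm.sign_of_cycleType']
  refine Multiset.prod_eq_one fun a ha => ?_
  obtain ⟨n, hn, rfl⟩ := Multiset.mem_map.1 ha
  rw [Equiv.Perm.cycleType_def] at hn
  obtain ⟨c, hc, rfl⟩ := Multiset.mem_map.1 hn
  obtain ⟨hc1, hc2⟩ := Equiv.Perm.mem_cycleFactorsFinset_iff.1 hc
  have hcyc : M.Cyc c.support ρ fun s => ρ (σ s) := by
    refine ⟨hc1.nonempty_support, fun s hs e => ?_, fun s _ s' _ e => hρ.inj e,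
      fun s _ s' _ e => ?_, fun s hs => ⟨σ s, ?_, h s⟩, fun s hs => ⟨c⁻¹ s, ?_, ?_⟩,
      fun A hA s hs s' hs' a => ?_⟩
    · have : s = σ s := hρ.inj (by rw [← h s, ← e])
      exact Equiv.Perm.mem_support.1 hs (by rw [hc2 s hs, ← this])
    · exact σ.injective (hρ.inj (by rw [← h s, ← h s']; exact e))
    · rw [← hc2 s hs]; exact Equiv.Perm.apply_mem_support.2 hs
    · rw [← Equiv.Perm.apply_mem_support]; simpa using hs
    · have : σ (c⁻¹ s) = s := by
        rw [← hc2 _ (by rw [← Equiv.Perm.apply_mem_support]; simpa using hs)]; simp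
      rw [h (c⁻¹ s), this]
    · obtain ⟨k, rfl⟩ := hc1.exists_pow_eq (Equiv.Perm.mem_support.1 hs)
        (Equiv.Perm.mem_support.1 hs')
      clear hs'
      induction k with
      | zero => simpa using a
      | succ k ih =>
        have h1 : (c ^ k) s ∈ c.support := Equiv.Perm.pow_apply_mem_support.2 hs
        rw [pow_succ', Equiv.Perm.mul_apply]
        refine (hA _ h1 _ (Equiv.Perm.apply_mem_support.2 h1) ?_).1 ih
        rw [h, hc2 _ h1]
  have h0 : s0 ∉ c.support := fun hs =>
    Equiv.Perm.mem_support.1 hs (by rw [hc2 _ hs, good_fix hρ h])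
  obtain ⟨S, -, hS⟩ := disc hcyc h0 hρ.2.1 hρ.2.2
  have := card_fb _ _ _ hcyc.neq
  have ho : Odd c.support.card := by
    rw [Nat.odd_iff]
    rcases hS with ⟨-, e⟩ | ⟨-, e⟩ <;> omega
  simp only [Function.comp]
  rw [ho.neg_one_pow, neg_neg]

theorem exists_tree (h4 : M.Four) (h2 : 2 ≤ Fintype.card B) (s0 : B) :
    ∃ ρ, M.Val s0 ρ ∧ ∀ g : W → ℚ,
      (∀ s, s ≠ s0 → g (M.π (ρ s + 1) s) = g (M.π (ρ s + 2) s)) → ∀ u v, g u = g v := by
  classical
  obtain ⟨ρ, hρ, hne⟩ := exists_ρ h4 h2 s0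
  refine ⟨ρ, hρ, fun g hg => ?_⟩
  let A : Matrix B B ℚ := fun t s =>
    if M.x s (ρ t) = M.x t (ρ t) then (if s = s0 then 1 else ε (ρ t) (ρ s)) else 0
  have hdet : A.det ≠ 0 := by
    rw [Matrix.det_apply']
    convert hne using 1
    rw [← Finset.sum_subset (Finset.filter_subset
      (fun σ : Equiv.Perm B => ∀ s, M.x s (ρ (σ s)) = M.x (σ s) (ρ (σ s))) univ)]
    · refine Finset.sum_bij (fun σ _ s => ρ (σ s)) (fun σ hσ => ?_) (fun σ hσ σ' hσ' e => ?_)
        (fun τ hτ => ?_) (fun σ hσ => ?_)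
      · have h := (Finset.mem_filter.1 hσ).2
        have h0 := good_fix hρ h
        refine Finset.mem_filter.2 ⟨mem_univ _, by simp only [h0, hρ.1], fun s hs i => ?_,
          fun s s' _ _ e => ?_⟩
        · dsimp only
          rw [h s]
          exact hρ.2.1 _ (fun e => hs (σ.injective (e.trans h0.symm))) i
        · exact σ.injective (hρ.inj (by rw [← h s, ← h s']; exact e))
      · have h := (Finset.mem_filter.1 hσ).2
        have h' := (Finset.mem_filter.1 hσ').2
        ext s
        have e1 : ρ (σ s) = ρ (σ' s) := congrFun e s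
        exact hρ.inj (by rw [← h s, ← h' s, e1])
      · have h := (Finset.mem_filter.1 hτ).2
        have : ∀ s, ∃ t, M.x s (τ s) = M.x t (ρ t) := by
          intro s
          by_cases c : s = s0
          · exact ⟨s0, by rw [c, h.1, hρ.1]⟩
          · obtain ⟨t, -, e⟩ := hρ.surj _ (h.2.1 s c)
            exact ⟨t, e.symm⟩
        choose f hf using this
        have hi : Function.Injective f := fun s s' e => h.inj (by rw [hf, hf, e])
        refine ⟨Equiv.ofBijective f (Finite.injective_iff_bijective.1 hi),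
          Finset.mem_filter.2 ⟨mem_univ _, fun s => ?_⟩, funext fun s => ?_⟩
        · simp only [Equiv.ofBijective_apply]
          rw [← hf s, M.x_inj (hf s)]
        · simp only [Equiv.ofBijective_apply]
          exact (M.x_inj (hf s)).symm
      · have h := (Finset.mem_filter.1 hσ).2
        rw [sign_good hρ h, ← Finset.mul_prod_erase _ _ (mem_univ s0)]
        simp only [A, if_pos (h _), if_true, Units.val_one, Int.cast_one, one_mul]
        exact Finset.prod_congr rfl fun s hs => if_neg (Finset.mem_erase.1 hs).1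
    · intro σ _ hσ
      simp only [Finset.mem_filter, Finset.mem_univ, true_and, not_forall] at hσ
      obtain ⟨s, hs⟩ := hσ
      rw [Finset.prod_eq_zero (mem_univ s) (if_neg hs), mul_zero]
  let J : B → ZMod 3 → ℚ := fun s i => g (M.π (i + 1) s) - g (M.π (i + 2) s)
  let F : B → ℚ := fun s => if s = s0 then J s0 0 else J s (ρ s + 2)
  have hJ : ∀ s, s ≠ s0 → ∀ j, J s j = ε j (ρ s) * F s := by
    intro s hs j
    have := hg s hs
    simp only [F, if_neg hs, J, z21, z22]
    rcases cases3 j (ρ s) with e | e | e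
    · rw [e, this, ε, if_neg (n01 _), if_neg (n02 _)]; ring
    · rw [e, z11, z12, ε, z11, z12, if_neg (n02 _), if_pos rfl, this]; ring
    · rw [e, z21, z22, ε, z21, if_pos rfl]; ring
  have vs : ∀ y, ∑ s, (if M.x s (M.col y) = y then J s (M.col y) else 0) = 0 := by
    intro y
    have := M.dd g fun z => if z = y then 1 else 0
    refine Eq.trans (Finset.sum_congr rfl fun s _ => ?_) this
    rw [Finset.sum_eq_single (M.col y)]
    · simp [J]
    · intro i _ hi
      rw [if_neg, mul_zero]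
      rintro rfl
      exact hi (M.col_x _ _).symm
    · simp
  have hF : F = 0 := by
    refine Matrix.eq_zero_of_mulVec_eq_zero hdet (funext fun t => ?_)
    have := vs (M.x t (ρ t))
    rw [M.col_x] at this
    rw [Pi.zero_apply, ← this]
    refine Finset.sum_congr rfl fun s _ => ?_
    simp only [A]
    split_ifs with c1 c2
    · have : t = s0 := by
        by_contra c3
        exact hρ.2.1 t c3 _ (by rw [← c1, c2])
      simp [F, c2, this, hρ.1]
    · rw [hJ s c2]
    · simp
  refine M.hF g fun s i => sub_eq_zero.1 ?_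
  have h1 : ∀ s, s ≠ s0 → ∀ j, J s j = 0 := fun s hs j => by rw [hJ s hs, hF]; simp
  by_cases c : s = s0
  · have := vs (M.x s i)
    rw [M.col_x, Finset.sum_eq_single s] at this
    · simpa using this
    · intro t _ ht
      rw [h1 t (c ▸ ht)]; simp
    · simp
  · exact h1 s c i

variable (M) in
/-- The complement of the matching `m` is connected. -/
def Conn (m : B → ZMod 3) : Prop :=
  ∀ (P : B → Prop) (Q : W → Prop), (∀ s i, i ≠ m s → (P s ↔ Q (M.π i s))) →
    ∀ s s', P s → P s'

theorem conn_of {s0 : B} {ρ m : B → ZMod 3} (hρ : M.Val s0 ρ)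
    (hm : Function.Injective fun s => M.π (m s) s) (hne : ∀ s, s ≠ s0 → m s ≠ ρ s) :
    M.Conn m := by
  classical
  let Cl : (B → Prop) → (W → Prop) → Prop := fun P Q => ∀ s i, i ≠ m s → (P s ↔ Q (M.π i s))
  let P0 : B → Prop := fun s => ∀ P Q, Cl P Q → P s0 → P s
  let Q0 : W → Prop := fun w => ∀ P Q, Cl P Q → P s0 → Q w
  have h0 : Cl P0 Q0 := fun s i hi =>
    ⟨fun h P Q c p => (c s i hi).1 (h P Q c p), fun h P Q c p => (c s i hi).2 (h P Q c p)⟩
  suffices h : ∀ s, P0 s by
    intro P Q c s s' p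
    by_cases p0 : P s0
    · exact h s' P Q c p0
    · exact absurd p (h s (fun s => ¬P s) (fun w => ¬Q w) (fun s i hi => (c s i hi).not) p0)
  intro s1
  by_contra hs1
  let S := univ.filter Q0
  let E' : Finset (B × ZMod 3) :=
    univ.filter fun e => M.π (e.2 + 1) e.1 ∈ S ∨ M.π (e.2 + 2) e.1 ∈ S
  let B' := univ.filter fun s => P0 s ∨ Q0 (M.π (m s) s)
  let U := univ.filter fun y => ∃ s i, P0 s ∧ y = M.x s i
  have cor : ∀ s i, P0 s → Q0 (M.π (i + 1) s) ∨ Q0 (M.π (i + 2) s) := by
    intro s i p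
    by_cases c : i + 1 = m s
    · exact Or.inr ((h0 s _ (by rw [← c]; exact (n12 _).symm)).1 p)
    · exact Or.inl ((h0 s _ c).1 p)
  have key := M.euler S (M.π (m s1 + 1) s1)
    (by simpa [S] using fun h => hs1 ((h0 s1 _ (n01 _).symm).2 h)) E'
    (fun s i h => by simpa [E'] using h) B' U (fun a b hab => by
      have hab' : ∀ s i, Q0 (M.π (i + 1) s) ∨ Q0 (M.π (i + 2) s) → b (M.x s i) = a s :=
        fun s i h => hab s i (by simpa [E', S] using h)
      have c : Cl (fun s => P0 s ∧ a s = a s0)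
          (fun w => Q0 w ∧ a ((M.π 0).symm w) = a s0) := by
        intro s i hi
        constructor
        · rintro ⟨p, e⟩
          have := (h0 s i hi).1 p
          exact ⟨this, by rw [M.val a b Q0 hab' s i this, e]⟩
        · rintro ⟨p, e⟩
          exact ⟨(h0 s i hi).2 p, by rw [← M.val a b Q0 hab' s i p, e]⟩
      have p0 : P0 s0 ∧ a s0 = a s0 := ⟨fun _ _ _ p => p, rfl⟩
      have q1 : ∀ s, P0 s → a s = a s0 := fun s p =>
        And.right (p (fun s => P0 s ∧ a s = a s0) (fun w => Q0 w ∧ a ((M.π 0).symm w) = a s0) c p0)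
      have q2 : ∀ w, Q0 w → a ((M.π 0).symm w) = a s0 := fun w p =>
        And.right (p (fun s => P0 s ∧ a s = a s0) (fun w => Q0 w ∧ a ((M.π 0).symm w) = a s0) c p0)
      refine ⟨a s0, fun s hs => ?_, fun y hy => ?_⟩
      · rcases (Finset.mem_filter.1 hs).2 with p | p
        · exact q1 _ p
        · rw [← M.val a b Q0 hab' s _ p]
          exact q2 _ p
      · obtain ⟨s, i, p, rfl⟩ := (Finset.mem_filter.1 hy).2
        rw [hab' s i (cor s i p)]
        exact q1 _ p)
  have h1 := M.card_whites S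
  have h2 : (E'.card : ℤ) = ∑ s, ∑ i,
      if M.π (i + 1) s ∈ S ∨ M.π (i + 2) s ∈ S then (1 : ℤ) else 0 := by
    rw [← Fintype.sum_prod_type']
    simp [E']
  have h3 : ∑ s, (if M.π (m s) s ∈ S then (1 : ℤ) else 0) = S.card := by
    rw [Fintype.sum_bijective _ ((Fintype.bijective_iff_injective_and_card _).2
      ⟨hm, M.cardW.symm⟩) (fun s => if M.π (m s) s ∈ S then (1 : ℤ) else 0)
      (fun w => if w ∈ S then (1 : ℤ) else 0) (fun _ => rfl)]
    simp
  have h4 : ∀ s, 2 * (∑ i, if M.π (i + 1) s ∈ S ∨ M.π (i + 2) s ∈ S then (1 : ℤ) else 0) +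
      (if M.π (m s) s ∈ S then (1 : ℤ) else 0) =
      (∑ i, if M.π i s ∈ S then (1 : ℤ) else 0) + 4 * (if s ∈ B' then 1 else 0) := by
    intro s
    rw [sum3 _ (m s), sum3 _ (m s)]
    have a1 := h0 s _ (n01 (m s)).symm
    have a2 := h0 s _ (n02 (m s)).symm
    simp only [z11, z12, z21, z22, S, B', Finset.mem_filter, Finset.mem_univ, true_and, ← a1, ← a2]
    by_cases c1 : P0 s <;> by_cases c2 : Q0 (M.π (m s) s) <;> simp [c1, c2]
  have h5 := Finset.sum_congr (rfl : (univ : Finset B) = univ) fun s _ => h4 s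
  simp only [Finset.sum_add_distrib, ← Finset.mul_sum, ← h2, h1, h3] at h5
  simp only [Finset.sum_ite_mem, Finset.univ_inter, Finset.sum_const, nsmul_eq_mul, mul_one] at h5
  have h6 : Uᶜ ⊆ B'ᶜ.image fun s => M.x s (ρ s) := by
    intro y hy
    simp only [U, Finset.mem_compl, Finset.mem_filter, Finset.mem_univ, true_and, not_exists,
      not_and] at hy
    obtain ⟨s, hs, rfl⟩ := hρ.surj y fun i => hy s0 i fun _ _ _ p => p
    refine Finset.mem_image_of_mem _ ?_
    simp only [B', Finset.mem_compl, Finset.mem_filter, Finset.mem_univ, true_and, not_or]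
    refine ⟨fun p => hy s _ p rfl, fun p => ?_⟩
    have aux : ∀ j, j ≠ m s → P0 ((M.π j).symm (M.π (m s) s)) := by
      intro j hj
      refine (h0 _ j fun e => ?_).2 (by simpa using p)
      have : (M.π j).symm (M.π (m s) s) = s := hm (by dsimp only; rw [← e]; simp)
      rw [this] at e
      exact hj e
    rcases cases3 (m s) (ρ s) with e | e | e
    · exact hne s hs e
    · refine hy _ (ρ s) (aux (ρ s + 2) (by rw [e]; exact (n12 _).symm)) (M.inv _ _ _ ?_)
      simp [e]
    · refine hy _ (ρ s) (aux (ρ s + 1) (by rw [e]; exact n12 _)) (M.inv _ _ _ ?_).symm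
      simp [e]
  have h7 := (Finset.card_le_card h6).trans Finset.card_image_le
  rw [Finset.card_compl, Finset.card_compl, M.cardV] at h7
  have h8 := Finset.card_le_univ B'
  generalize S.card = c1 at *
  generalize B'.card = c2 at *
  generalize U.card = c3 at *
  generalize E'.card = c4 at *
  clear * - h8 h7 h5 key
  omega

theorem good_four (h4 : M.Four) (h2 : 2 ≤ Fintype.card B) (s0 : B) (i0 : ZMod 3) :
    ∃ m : B → ZMod 3, m s0 = i0 ∧ (Function.Injective fun s => M.π (m s) s) ∧ M.Conn m := by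
  obtain ⟨ρ, hρ, ht⟩ := exists_tree h4 h2 s0
  let K : Matrix B B ℚ := fun s t => if s = s0 then (if M.π i0 s0 = M.π 0 t then 1 else 0) else
    (if M.π (ρ s + 1) s = M.π 0 t then 1 else 0) - (if M.π (ρ s + 2) s = M.π 0 t then 1 else 0)
  have ev : ∀ (v : B → ℚ) (w : W), ∑ t, (if w = M.π 0 t then (1 : ℚ) else 0) * v t =
      v ((M.π 0).symm w) := by
    intro v w
    simp [← Equiv.symm_apply_eq]
  have hdet : K.transpose.det ≠ 0 := by
    rw [Matrix.det_transpose]
    intro h
    obtain ⟨v, hv, h⟩ := Matrix.exists_mulVec_eq_zero_iff.2 h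
    have h1 := ht (fun w => v ((M.π 0).symm w)) fun s hs => by
      have := congrFun h s
      simp only [Matrix.mulVec, dotProduct, K, if_neg hs, sub_mul, Finset.sum_sub_distrib, ev,
        Pi.zero_apply] at this
      exact sub_eq_zero.1 this
    have h3 := congrFun h s0
    simp only [Matrix.mulVec, dotProduct, K, if_true, ev, Pi.zero_apply] at h3
    refine hv (funext fun t => ?_)
    have := h1 (M.π 0 t) (M.π i0 s0)
    simpa [h3] using this
  rw [Matrix.det_apply'] at hdet
  obtain ⟨σ, -, hσ⟩ := Finset.exists_ne_zero_of_sum_ne_zero hdet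
  have h5 := Finset.prod_ne_zero_iff.1 (right_ne_zero_of_mul hσ)
  have : ∀ s, ∃ i, M.π i s = M.π 0 (σ s) ∧ (s = s0 → i = i0) ∧ (s ≠ s0 → i ≠ ρ s) := by
    intro s
    have := h5 s (mem_univ _)
    rw [Matrix.transpose_apply] at this
    simp only [K] at this
    split_ifs at this with c1 c2 c3 c4 c4
    · exact ⟨i0, c1 ▸ c2, fun _ => rfl, fun h => absurd c1 h⟩
    · exact absurd rfl this
    · exact ⟨_, c3, fun h => absurd h c1, fun _ => (n01 _).symm⟩
    · exact ⟨_, c3, fun h => absurd h c1, fun _ => (n01 _).symm⟩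
    · exact ⟨_, c4, fun h => absurd h c1, fun _ => (n02 _).symm⟩
    · simp at this
  choose m a1 a2 a3 using this
  have hi : Function.Injective fun s => M.π (m s) s := fun s s' e => by
    simp only [a1] at e
    exact σ.injective ((M.π 0).injective e)
  exact ⟨m, a2 s0 rfl, hi, conn_of hρ hi a3⟩

end PM

end Vale.Agent.P039
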