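import Vale.Agent.P039.Rank

namespace Vale.Agent.P039

open Finset

universe u

theorem z11 (j : ZMod 3) : j + 1 + 1 = j + 2 := by revert j; decide
theorem z12 (j : ZMod 3) : j + 1 + 2 = j := by revert j; decide
theorem z21 (j : ZMod 3) : j + 2 + 1 = j := by revert j; decide
theorem z22 (j : ZMod 3) : j + 2 + 2 = j + 1 := by revert j; decide
theorem cases3 (i j : ZMod 3) : i = j ∨ i = j + 1 ∨ i = j + 2 := by revert i j; decide
theorem n01 (j : ZMod 3) : j ≠ j + 1 := by revert j; decide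
theorem n02 (j : ZMod 3) : j ≠ j + 2 := by revert j; decide
theorem n12 (j : ZMod 3) : j + 1 ≠ j + 2 := by revert j; decide

theorem sum3 {M : Type*} [AddCommMonoid M] (f : ZMod 3 → M) (j : ZMod 3) :
    ∑ i, f i = f j + f (j + 1) + f (j + 2) := by
  have h : (Finset.univ : Finset (ZMod 3)) = {j, j + 1, j + 2} := by revert j; decide
  rw [h, Finset.sum_insert (by simp; decide), Finset.sum_insert (by simp; decide),
    Finset.sum_singleton, add_assoc]

/-- Planar cubic bipartite map with its face colouring. -/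
structure PM0 (B W V : Type u) [Fintype B] [Fintype W] [Fintype V] [DecidableEq B]
    [DecidableEq W] where
  π : ZMod 3 → B ≃ W
  x : B → ZMod 3 → V
  col : V → ZMod 3
  col_x : ∀ s i, col (x s i) = i
  surj : ∀ y, ∃ s, x s (col y) = y
  inv : ∀ s s' i, π (i + 1) s = π (i + 2) s' → x s i = x s' i
  orb : ∀ i (A : Set B), (∀ s ∈ A, ∀ s', π (i + 1) s = π (i + 2) s' → s' ∈ A) →
    ∀ s ∈ A, ∀ s', x s i = x s' i → s' ∈ A
  nonemptyB : Nonempty B
  conn3 : ∀ (P : Finset B) (Q : Finset W), (P.Nonempty ∨ Q.Nonempty) →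
    (Pᶜ.Nonempty ∨ Qᶜ.Nonempty) →
    3 ≤ (univ.filter fun e : B × ZMod 3 => ¬(e.1 ∈ P ↔ π e.2 e.1 ∈ Q)).card

structure PM (B W V : Type u) [Fintype B] [Fintype W] [Fintype V] [DecidableEq B]
    [DecidableEq W] extends PM0 B W V where
  card : Fintype.card B + 2 ≤ Fintype.card V

namespace PM0

variable {B W V : Type u} [Fintype B] [Fintype W] [Fintype V] [DecidableEq B] [DecidableEq W]
  [DecidableEq V] (M : PM0 B W V)

include M

omit [DecidableEq V] in
theorem x_inj {s s' : B} {i j : ZMod 3} (h : M.x s i = M.x s' j) : i = j := by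
  rw [← M.col_x s i, h, M.col_x]

omit [DecidableEq V] in
theorem cardW : Fintype.card W = Fintype.card B := (Fintype.card_congr (M.π 0)).symm

omit [DecidableEq V] in
theorem conn (P : B → Prop) (Q : W → Prop) (h : ∀ s i, P s ↔ Q (M.π i s)) (s0 : B) (h0 : P s0) :
    ∀ s, P s := by
  classical
  by_contra hc
  push Not at hc
  obtain ⟨s1, h1⟩ := hc
  have := M.conn3 (univ.filter P) (univ.filter Q) (Or.inl ⟨s0, by simpa⟩)
    (Or.inl ⟨s1, by simpa⟩)
  rw [Finset.filter_false_of_mem] at this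
  · simp at this
  · intro e _
    simpa using h e.1 e.2

omit [DecidableEq V] in
theorem hF {K : Type*} (g : W → K) (h : ∀ s i, g (M.π (i + 1) s) = g (M.π (i + 2) s)) (u v : W) :
    g u = g v := by
  have key : ∀ s i, g (M.π i s) = g (M.π 0 s) := by
    intro s i
    rcases cases3 i 0 with rfl | rfl | rfl
    · rfl
    · exact (h s 2).symm
    · exact h s 1
  have := M.conn (fun s => g (M.π 0 s) = g u) (fun w => g w = g u)
    (fun s i => by rw [key s i]) ((M.π 0).symm u) (by simp) ((M.π 0).symm v)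
  simpa using this.symm

/-- The incidence complex of black vertices and faces. -/
def cx : Cx ℚ W (B × ZMod 3) (B ⊕ V) where
  L e := M.π (e.2 + 1) e.1
  R e := M.π (e.2 + 2) e.1
  t e := Sum.inl e.1
  h e := Sum.inr (M.x e.1 e.2)
  dd g a := by
    simp only [mul_sub, Finset.sum_sub_distrib]
    rw [sub_eq_zero]
    have h1 : ∑ e : B × ZMod 3, (g (M.π (e.2 + 1) e.1) - g (M.π (e.2 + 2) e.1)) *
        a (Sum.inl e.1) = 0 := by
      rw [Fintype.sum_prod_type]
      refine Finset.sum_eq_zero fun s _ => ?_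
      rw [sum3 _ 0]
      simp only [z11, z12, z21, z22]
      ring
    rw [h1, Fintype.sum_prod_type_right]
    refine Finset.sum_eq_zero fun i _ => ?_
    simp only [sub_mul, Finset.sum_sub_distrib]
    rw [sub_eq_zero]
    refine Fintype.sum_equiv ((M.π (i + 1)).trans (M.π (i + 2)).symm) _ _ fun s => ?_
    simp only [Equiv.trans_apply, Equiv.apply_symm_apply]
    rw [M.inv s ((M.π (i + 2)).symm (M.π (i + 1) s)) i (by simp)]

omit [DecidableEq V] in
theorem val {K : Type*} (a : B → K) (b : V → K) (S : W → Prop)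
    (h : ∀ s i, S (M.π (i + 1) s) ∨ S (M.π (i + 2) s) → b (M.x s i) = a s) (s : B) (i : ZMod 3)
    (hs : S (M.π i s)) : a ((M.π 0).symm (M.π i s)) = a s := by
  rcases cases3 i 0 with rfl | rfl | rfl
  · simp
  · rw [← h s 2 (Or.inr hs), ← h _ 2 (Or.inl (by simpa [show (2 + 1 : ZMod 3) = 0 from rfl]))]
    rw [M.inv _ s 2 (by simp [show (2 + 1 : ZMod 3) = 0 from rfl]; rfl)]
  · rw [← h s 1 (Or.inl hs), ← h _ 1 (Or.inr (by simpa [show (1 + 2 : ZMod 3) = 0 from rfl]))]
    rw [M.inv s ((M.π 0).symm (M.π (0 + 2) s)) 1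
      (by simp [show (1 + 2 : ZMod 3) = 0 from rfl]; rfl)]

theorem euler (S : Finset W) (w0 : W) (hS : w0 ∉ S) (E' : Finset (B × ZMod 3))
    (hE : ∀ s i, M.π (i + 1) s ∈ S ∨ M.π (i + 2) s ∈ S → (s, i) ∈ E') (B' : Finset B)
    (U : Finset V) (hX : ∀ (a : B → ℚ) (b : V → ℚ), (∀ s i, (s, i) ∈ E' → b (M.x s i) = a s) →
      ∃ c, (∀ s ∈ B', a s = c) ∧ ∀ y ∈ U, b y = c) :
    S.card + B'.card + U.card ≤ E'.card + 1 := by
  have := M.cx.euler (fun g hg => M.hF g fun s i => hg (s, i)) S w0 hS E'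
    (fun e he => hE e.1 e.2 he) (B'.disjSum U) ?_
  · rw [Finset.card_disjSum] at this
    omega
  · intro a ha
    obtain ⟨c, h1, h2⟩ := hX (fun s => a (Sum.inl s)) (fun y => a (Sum.inr y))
      (fun s i h => ha (s, i) h)
    have : ∀ z ∈ B'.disjSum U, a z = c := by
      intro z hz
      rcases z with s | y
      · exact h1 s (by simpa using hz)
      · exact h2 y (by simpa using hz)
    intro x hx y hy
    rw [this x hx, this y hy]

omit [DecidableEq V] in
theorem hX {K : Type*} (a : B → K) (b : V → K) (h : ∀ s i, b (M.x s i) = a s) :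
    ∃ c, (∀ s, a s = c) ∧ ∀ y, b y = c := by
  obtain ⟨s0⟩ := M.nonemptyB
  have h1 : ∀ s, a s = a s0 := by
    refine M.conn (fun s => a s = a s0) (fun w => a ((M.π 0).symm w) = a s0) (fun s i => ?_) s0 rfl
    rw [M.val a b (fun _ => True) (fun s i _ => h s i) s i trivial]
  refine ⟨a s0, h1, fun y => ?_⟩
  obtain ⟨s, hs⟩ := M.surj y
  rw [← hs, h, h1]

theorem cardV_le : Fintype.card V ≤ Fintype.card B + 2 := by
  obtain ⟨s0⟩ := M.nonemptyB
  have := M.euler (univ.erase (M.π 0 s0)) (M.π 0 s0) (by simp) univ (by simp) univ univ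
    (fun a b h => by
      obtain ⟨c, h1, h2⟩ := M.hX a b fun s i => h s i (mem_univ _)
      exact ⟨c, fun s _ => h1 s, fun y _ => h2 y⟩)
  have h3 := M.cardW
  have h4 : 0 < Fintype.card B := Fintype.card_pos_iff.2 ⟨s0⟩
  simp only [Finset.card_erase_of_mem (mem_univ _), Finset.card_univ, Fintype.card_prod,
    ZMod.card] at this
  omega

omit [DecidableEq V] in
theorem dd (g : W → ℚ) (b : V → ℚ) :
    ∑ s, ∑ i, (g (M.π (i + 1) s) - g (M.π (i + 2) s)) * b (M.x s i) = 0 := by
  have := M.cx.dd g (Sum.elim (fun _ => 0) b)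
  simpa [cx, Fintype.sum_prod_type] using this

omit [DecidableEq V] in
theorem card_whites (S : Finset W) :
    ∑ s, ∑ i, (if M.π i s ∈ S then (1 : ℤ) else 0) = 3 * S.card := by
  rw [Finset.sum_comm]
  have : ∀ i, ∑ s, (if M.π i s ∈ S then (1 : ℤ) else 0) = S.card := by
    intro i
    rw [Fintype.sum_equiv (M.π i) _ (fun w => if w ∈ S then (1 : ℤ) else 0) (fun _ => rfl)]
    simp
  simp [this]

end PM0

namespace PM

variable {B W V : Type u} [Fintype B] [Fintype W] [Fintype V] [DecidableEq B] [DecidableEq W]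
  [DecidableEq V] (M : PM B W V)

include M

theorem cardV : Fintype.card V = Fintype.card B + 2 := le_antisymm M.cardV_le M.card

theorem exact (z : B → ZMod 3 → ℚ) (h1 : ∀ s, ∑ i, z s i = 0)
    (h2 : ∀ b : V → ℚ, ∑ s, ∑ i, z s i * b (M.x s i) = 0) :
    ∃ g : W → ℚ, ∀ s i, z s i = g (M.π (i + 1) s) - g (M.π (i + 2) s) := by
  obtain ⟨s0⟩ := M.nonemptyB
  obtain ⟨g, hg⟩ := M.cx.exact (fun g hg => M.hF g fun s i => hg (s, i)) (fun a ha x y => by
      obtain ⟨c, h1, h2⟩ := M.hX (fun s => a (Sum.inl s)) (fun y => a (Sum.inr y))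
        fun s i => ha (s, i)
      have : ∀ z, a z = c := fun z => by
        rcases z with s | y
        · exact h1 s
        · exact h2 y
      rw [this x, this y])
    (by
      have := M.card
      have := M.cardW
      simp only [Fintype.card_prod, ZMod.card, Fintype.card_sum]
      omega) (M.π 0 s0) (fun e => z e.1 e.2) (fun a => by
      simp only [mul_sub, Finset.sum_sub_distrib, Fintype.sum_prod_type, PM0.cx]
      rw [h2 (fun y => a (Sum.inr y))]
      simp only [← Finset.sum_mul, h1]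
      simp)
  exact ⟨g, fun s i => hg (s, i)⟩

end PM

end Vale.Agent.P039
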