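import Vale.Agent.P039.Hall

namespace Vale.Agent.P039

open Finset

universe u

namespace PM

variable {B W V : Type u} [Fintype B] [Fintype W] [Fintype V] [DecidableEq B] [DecidableEq W]
  [DecidableEq V] (M : PM B W V)

def Val (s0 : B) (τ : B → ZMod 3) : Prop :=
  τ s0 = 0 ∧ (∀ s, s ≠ s0 → ∀ i, M.x s (τ s) ≠ M.x s0 i) ∧
    ∀ s s', s ≠ s0 → s' ≠ s0 → M.x s (τ s) = M.x s' (τ s') → s = s'

variable {M}

omit [DecidableEq V] in
theorem Val.inj {s0 : B} {τ : B → ZMod 3} (h : M.Val s0 τ) {s s' : B}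
    (e : M.x s (τ s) = M.x s' (τ s')) : s = s' := by
  by_cases h1 : s = s0 <;> by_cases h2 : s' = s0
  · rw [h1, h2]
  · subst h1; exact absurd e.symm (h.2.1 s' h2 _)
  · subst h2; exact absurd e (h.2.1 s h1 _)
  · exact h.2.2 s s' h1 h2 e

theorem Val.surj {s0 : B} {τ : B → ZMod 3} (h : M.Val s0 τ) (y : V) (hy : ∀ i, y ≠ M.x s0 i) :
    ∃ s, s ≠ s0 ∧ M.x s (τ s) = y := by
  have h1 : (univ.erase s0).image (fun s => M.x s (τ s)) = (univ.image (M.x s0))ᶜ := by
    apply Finset.eq_of_subset_of_card_le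
    · intro z hz
      obtain ⟨s, hs, rfl⟩ := Finset.mem_image.1 hz
      simp only [Finset.mem_compl, Finset.mem_image, Finset.mem_univ, true_and, not_exists]
      exact fun i e => h.2.1 s (Finset.mem_erase.1 hs).1 i e.symm
    · rw [Finset.card_compl, Finset.card_image_of_injective _ fun i j e => M.x_inj e,
        Finset.card_image_of_injective _ fun s s' e => h.inj e, M.cardV,
        Finset.card_erase_of_mem (mem_univ _)]
      simp
  have : y ∈ (univ.image (M.x s0))ᶜ := by
    simp only [Finset.mem_compl, Finset.mem_image, Finset.mem_univ, true_and, not_exists]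
    exact fun i e => hy i e.symm
  rw [← h1] at this
  obtain ⟨s, hs, e⟩ := Finset.mem_image.1 this
  exact ⟨s, (Finset.mem_erase.1 hs).1, e⟩

variable (M)

theorem jb_single (y : V) (s : B) : M.jb {y} s = if M.x s (M.col y) = y then 1 else 0 := by
  unfold jb cnt
  rw [Finset.sum_eq_single (M.col y)]
  · simp
  · intro i _ hi
    rw [if_neg]
    intro e
    rw [Finset.mem_singleton] at e
    exact hi (by rw [← e, M.col_x])
  · simp

theorem sum_jb (U : Finset V) (s : B) : ∑ y ∈ U, M.jb {y} s = M.jb U s := by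
  unfold jb cnt
  rw [Finset.sum_comm]
  exact Finset.sum_congr rfl fun i _ => by simp

theorem two_le_deg (h2 : 2 ≤ Fintype.card B) (y : V) : 2 ≤ ∑ s, M.jb {y} s := by
  obtain ⟨s, hs⟩ := M.surj y
  let s' := (M.π (M.col y + 2)).symm (M.π (M.col y + 1) s)
  have h1 : M.x s' (M.col y) = y := by rw [← M.inv s s' _ (by simp [s']), hs]
  have h3 : s ≠ s' := by
    intro e
    apply M.π_ne h2 s (M.col y)
    conv_rhs => rw [e]
    simp [s']
  have := Finset.sum_le_sum_of_subset (f := fun s => M.jb {y} s)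
    (Finset.subset_univ ({s, s'} : Finset B))
  rw [Finset.sum_pair h3] at this
  simpa [jb_single, hs, h1] using this

theorem exists_omit (h4 : M.Four) (h2 : 2 ≤ Fintype.card B) (s0 : B) :
    ∃ o : B → ZMod 3, ∀ y, (univ.filter fun s => s ≠ s0 ∧ M.x s (M.col y) = y ∧
      o s ≠ M.col y).card + 2 * M.jb {y} s0 = 2 := by
  let sl : V → ℕ := fun y => ∑ s, M.jb {y} s - 2 + M.jb {y} s0
  have hsl : ∀ U : Finset V, ∑ y ∈ U, sl y + 2 * U.card = ∑ s, M.jb U s + M.jb U s0 := by
    intro U
    rw [← M.sum_jb U s0, ← Finset.sum_congr rfl fun s _ => M.sum_jb U s, Finset.sum_comm,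
      ← Finset.sum_add_distrib, Finset.card_eq_sum_ones, Finset.mul_sum, ← Finset.sum_add_distrib]
    refine Finset.sum_congr rfl fun y _ => ?_
    have := M.two_le_deg h2 y
    simp only [sl]
    omega
  let t : {s // s ≠ s0} → Finset (Σ _ : V, ℕ) := fun s =>
    (univ.image (M.x s)).sigma fun y => range (sl y)
  obtain ⟨f, hf1, hf2⟩ := (Finset.all_card_le_biUnion_card_iff_exists_injective t).1 (by
    intro A
    let U := A.biUnion fun s => univ.image (M.x s)
    have e : A.biUnion t = U.sigma fun y => range (sl y) := by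
      ext ⟨y, m⟩
      simp only [t, U, Finset.mem_biUnion, Finset.mem_sigma]
      tauto
    rw [e, Finset.card_sigma]
    simp only [Finset.card_range]
    have h1 := hsl U
    have h3 := M.hall_ineq h4 s0 U
    have hb : ∀ s, M.jb U s ≤ 3 := fun s => cnt_le _
    have e7 := sum_fib _ hb id
    rw [sum_fib _ hb (min 2)] at h3
    simp only [id] at e7
    have h5 : A.card + (if M.jb U s0 = 3 then 1 else 0) ≤ N (M.jb U) 3 := by
      have h6 : A.map (Function.Embedding.subtype _) ⊆
          (univ.filter fun s => M.jb U s = 3).erase s0 := by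
        intro s hs
        obtain ⟨s', hs', rfl⟩ := Finset.mem_map.1 hs
        refine Finset.mem_erase.2 ⟨s'.2, ?_⟩
        simp only [Finset.mem_filter, Finset.mem_univ, true_and]
        exact cnt_three.2 fun i => Finset.mem_biUnion.2 ⟨s', hs', by simp⟩
      have h7 := Finset.card_le_card h6
      rw [Finset.card_map] at h7
      split_ifs with h8
      · rw [Finset.card_erase_of_mem (by simpa)] at h7
        have : 0 < N (M.jb U) 3 := Finset.card_pos.2 ⟨s0, by simpa⟩
        unfold N at this ⊢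
        omega
      · exact h7.trans Finset.card_erase_le
    norm_num at h3 e7
    omega)
  let o : B → ZMod 3 := fun s => if h : s = s0 then 0 else M.col (f ⟨s, h⟩).1
  have ho : ∀ s (h : s ≠ s0), M.x s (o s) = (f ⟨s, h⟩).1 ∧ (f ⟨s, h⟩).2 < sl (f ⟨s, h⟩).1 := by
    intro s h
    have := hf2 ⟨s, h⟩
    simp only [t, Finset.mem_sigma, Finset.mem_image, Finset.mem_univ, true_and,
      Finset.mem_range] at this
    obtain ⟨⟨i, hi⟩, h3⟩ := this
    refine ⟨?_, h3⟩
    simp only [o, dif_neg h]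
    rw [← hi, M.col_x]
  let c : V → ℕ := fun y => ((univ.erase s0).filter fun s => M.x s (o s) = y).card
  have hc : ∀ y, c y ≤ sl y := by
    intro y
    rw [← Finset.card_range (sl y)]
    refine Finset.card_le_card_of_injOn
      (fun s => if h : s = s0 then 0 else (f ⟨s, h⟩).2) (fun s hs => ?_) (fun s hs s' hs' e => ?_)
    · simp only [Finset.coe_filter, Finset.mem_erase, Finset.mem_univ, and_true,
        Set.mem_ofPred_eq] at hs
      simp only [dif_neg hs.1, Finset.coe_range, Set.mem_Iio]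
      exact lt_of_lt_of_eq (ho s hs.1).2 (congrArg sl ((ho s hs.1).1.symm.trans hs.2))
    · simp only [Finset.coe_filter, Finset.mem_erase, Finset.mem_univ, and_true,
        Set.mem_ofPred_eq] at hs hs'
      simp only [dif_neg hs.1, dif_neg hs'.1] at e
      have : f ⟨s, hs.1⟩ = f ⟨s', hs'.1⟩ := Sigma.ext (by
        rw [← (ho s hs.1).1, ← (ho s' hs'.1).1, hs.2, hs'.2]) (heq_of_eq e)
      exact congrArg Subtype.val (hf1 this)
  have hsum : ∑ y, c y = ∑ y, sl y := by
    have h1 := hsl univ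
    have h3 : ∀ s, M.jb univ s = 3 := fun s => cnt_three.2 fun i => by simp
    have h5 : (univ.erase s0).card = ∑ y, c y :=
      Finset.card_eq_sum_card_fiberwise (f := fun s => M.x s (o s)) (t := univ) (by simp)
    rw [Finset.card_erase_of_mem (mem_univ _)] at h5
    simp only [h3, Finset.sum_const, Finset.card_univ, smul_eq_mul, M.cardV] at h1 h5
    omega
  have heq := (Finset.sum_eq_sum_iff_of_le fun y _ => hc y).1 hsum
  refine ⟨o, fun y => ?_⟩
  have h1 := heq y (mem_univ _)
  have h3 := M.two_le_deg h2 y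
  have h5 : (univ.filter fun s => s ≠ s0 ∧ M.x s (M.col y) = y ∧ o s ≠ M.col y).card + c y +
      M.jb {y} s0 = ∑ s, M.jb {y} s := by
    have e1 : M.jb {y} s0 = ∑ s, if s = s0 then M.jb {y} s else 0 := by simp
    have e2 : c y = ∑ s, if s ≠ s0 ∧ M.x s (o s) = y then 1 else 0 := by
      rw [← Finset.card_filter]
      simp only [c]
      congr 1
      ext s
      simp
    rw [e1, e2, Finset.card_filter, ← Finset.sum_add_distrib, ← Finset.sum_add_distrib]
    refine Finset.sum_congr rfl fun s _ => ?_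
    rw [jb_single]
    by_cases a1 : s = s0
    · simp [a1]
    by_cases a2 : o s = M.col y
    · simp [a1, a2]
    · have : M.x s (o s) ≠ y := fun e => a2 (by rw [← e, M.col_x])
      simp [a1, a2, this]
  simp only [sl] at h1
  omega

theorem exists_pair (h4 : M.Four) (h2 : 2 ≤ Fintype.card B) (s0 : B) :
    ∃ τ ρ, M.Val s0 τ ∧ M.Val s0 ρ ∧ ∀ s, s ≠ s0 → τ s ≠ ρ s := by
  obtain ⟨o, ho⟩ := M.exists_omit h4 h2 s0
  have root : ∀ s, s ≠ s0 → ∀ j, j ≠ o s → ∀ i, M.x s j ≠ M.x s0 i := by
    intro s hs j hj i e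
    have h1 := ho (M.x s0 i)
    have h3 := M.x_inj e
    rw [jb_single, M.col_x, if_pos rfl] at h1
    have : 0 < (univ.filter fun s => s ≠ s0 ∧ M.x s i = M.x s0 i ∧ o s ≠ i).card :=
      Finset.card_pos.2 ⟨s, by simp [hs, ← h3, hj.symm]; rw [e, h3]⟩
    omega
  let t : {s // s ≠ s0} → Finset V := fun s => {M.x s (o s + 1), M.x s (o s + 2)}
  have ht : ∀ (s : {s // s ≠ s0}) y, y ∈ t s → M.x s (M.col y) = y ∧ o s ≠ M.col y := by
    intro s y hy
    simp only [t, Finset.mem_insert, Finset.mem_singleton] at hy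
    rcases hy with rfl | rfl
    · rw [M.col_x]; exact ⟨rfl, n01 _⟩
    · rw [M.col_x]; exact ⟨rfl, n02 _⟩
  obtain ⟨f, hf1, hf2⟩ := (Finset.all_card_le_biUnion_card_iff_exists_injective t).1 (by
    intro A
    have := Finset.card_mul_le_card_mul (s := A) (t := A.biUnion t) (m := 2) (n := 2)
      (fun s y => y ∈ t s) (fun s hs => by
        have : t s ⊆ (A.biUnion t).bipartiteAbove (fun s y => y ∈ t s) s := fun y hy =>
          (Finset.mem_bipartiteAbove _).2 ⟨Finset.mem_biUnion.2 ⟨s, hs, hy⟩, hy⟩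
        refine le_trans (le_of_eq ?_) (Finset.card_le_card this)
        exact (Finset.card_pair fun e => n12 _ (M.x_inj e)).symm) (fun y _ => by
        have h1 := ho y
        refine le_trans (Finset.card_le_card_of_injOn (t := univ.filter fun s => s ≠ s0 ∧
          M.x s (M.col y) = y ∧ o s ≠ M.col y) Subtype.val (fun s hs => ?_)
          Subtype.val_injective.injOn) (by omega)
        have := ((Finset.mem_bipartiteBelow _).1 hs).2
        simpa using ⟨s.2, ht s y this⟩)
    omega)
  let τ : B → ZMod 3 := fun s => if h : s = s0 then 0 else M.col (f ⟨s, h⟩)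
  have hτ : ∀ s (h : s ≠ s0), M.x s (τ s) = f ⟨s, h⟩ ∧ τ s ≠ o s := by
    intro s h
    have := ht ⟨s, h⟩ _ (hf2 ⟨s, h⟩)
    simp only [τ, dif_neg h]
    exact ⟨this.1, this.2.symm⟩
  have vτ : M.Val s0 τ := ⟨by simp [τ], fun s hs => root s hs _ (hτ s hs).2,
    fun s s' hs hs' e => by
      rw [(hτ s hs).1, (hτ s' hs').1] at e
      exact congrArg Subtype.val (hf1 e)⟩
  let ρ : B → ZMod 3 := fun s => if s = s0 then 0 else -o s - τ s
  have hρ : ∀ s, s ≠ s0 → ρ s ≠ o s ∧ τ s ≠ ρ s := by
    intro s h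
    have := (hτ s h).2
    simp only [ρ, if_neg h]
    revert this
    generalize τ s = a; generalize o s = b; revert a b; decide
  refine ⟨τ, ρ, vτ, ⟨by simp [ρ], fun s hs => root s hs _ (hρ s hs).1, fun s s' hs hs' e => ?_⟩,
    fun s hs => (hρ s hs).2⟩
  by_contra hne
  obtain ⟨s'', hs'', e'⟩ := vτ.surj _ (root s hs _ (hρ s hs).1)
  have h1 := ho (M.x s (ρ s))
  have a1 := M.x_inj e
  have a2 := M.x_inj e'
  have a3 : s'' ≠ s := fun h => (hρ s hs).2 (h ▸ a2)
  have a4 : s'' ≠ s' := fun h => (hρ s' hs').2 (by rw [← a1, ← a2, h])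
  have : ({s, s', s''} : Finset B) ⊆ univ.filter fun r => r ≠ s0 ∧
      M.x r (M.col (M.x s (ρ s))) = M.x s (ρ s) ∧ o r ≠ M.col (M.x s (ρ s)) := by
    intro r hr
    simp only [Finset.mem_insert, Finset.mem_singleton] at hr
    simp only [Finset.mem_filter, Finset.mem_univ, true_and, M.col_x]
    rcases hr with rfl | rfl | rfl
    · exact ⟨hs, rfl, (hρ _ hs).1.symm⟩
    · exact ⟨hs', by rw [e, a1], by rw [a1]; exact (hρ _ hs').1.symm⟩
    · exact ⟨hs'', by rw [← e', ← a2], by rw [← a2]; exact (hτ _ hs'').2.symm⟩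
  have h3 := Finset.card_le_card this
  rw [Finset.card_eq_three.2 ⟨s, s', s'', hne, a3.symm, a4.symm, rfl⟩] at h3
  omega

end PM

end Vale.Agent.P039
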