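import Mathlib

namespace Vale.Agent.P039

open Matrix Finset

theorem rank_bound {K F E X : Type*} [Field K] [Fintype F] [Fintype E] [Fintype X]
    (A : Matrix F E K) (B : Matrix E X K) (h : A * B = 0)
    (hA : ∀ g, g ᵥ* A = 0 → g = 0) (hB : ∀ a, B *ᵥ a = 0 → ∀ x y, a x = a y) :
    Fintype.card F + Fintype.card X ≤ Fintype.card E + 1 := by
  classical
  have h1 := Matrix.rank_add_rank_le_card_of_mul_eq_zero h
  have h2 : A.rank = Fintype.card F := by
    rw [← Matrix.rank_transpose, Matrix.rank, LinearMap.finrank_range_of_inj, Module.finrank_pi]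
    rw [← LinearMap.ker_eq_bot, LinearMap.ker_eq_bot']
    intro g hg
    exact hA g (by simpa [Matrix.mulVec_transpose] using hg)
  have h3 := LinearMap.finrank_range_add_finrank_ker B.mulVecLin
  have h4 : Module.finrank K (LinearMap.ker B.mulVecLin) ≤ 1 := by
    have : LinearMap.ker B.mulVecLin ≤ Submodule.span K {(fun _ => 1 : X → K)} := by
      intro a ha
      rw [Submodule.mem_span_singleton]
      rcases isEmpty_or_nonempty X with hX | ⟨⟨x⟩⟩
      · exact ⟨0, Subsingleton.elim _ _⟩
      · exact ⟨a x, funext fun y => by simpa using hB a ha x y⟩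
    exact (Submodule.finrank_mono this).trans (by simpa using finrank_span_le_card ({(fun _ => 1 : X → K)} : Set (X → K)))
  rw [Module.finrank_pi] at h3
  unfold Matrix.rank at h1 h2
  omega

/-- An abstract two-dimensional complex. -/
structure Cx (K F E X : Type*) [Field K] [Fintype E] where
  L : E → F
  R : E → F
  t : E → X
  h : E → X
  dd : ∀ (g : F → K) (a : X → K), ∑ e, (g (L e) - g (R e)) * (a (h e) - a (t e)) = 0

variable {K F E X : Type*} [Field K] [Fintype F] [Fintype E] [Fintype X] [DecidableEq F]
  [DecidableEq E] [DecidableEq X]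

theorem sum_ind {α : Type*} [Fintype α] [DecidableEq α] (S : Finset α) (g : S → K) (u : α) :
    ∑ w : S, g w * (if u = w then 1 else 0) = if h : u ∈ S then g ⟨u, h⟩ else 0 := by
  split_ifs with h
  · rw [Finset.sum_eq_single ⟨u, h⟩]
    · simp
    · intro b _ hb
      rw [if_neg, mul_zero]
      rintro rfl
      exact hb rfl
    · simp
  · refine Finset.sum_eq_zero fun w _ => ?_
    rw [if_neg, mul_zero]
    rintro rfl
    exact h w.2

theorem Cx.euler (C : Cx K F E X) (hF : ∀ g : F → K, (∀ e, g (C.L e) = g (C.R e)) →
    ∀ u v, g u = g v) (S : Finset F) (f0 : F) (hS : f0 ∉ S) (E' : Finset E)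
    (hE : ∀ e, C.L e ∈ S ∨ C.R e ∈ S → e ∈ E') (X' : Finset X)
    (hX : ∀ a : X → K, (∀ e ∈ E', a (C.h e) = a (C.t e)) → ∀ x ∈ X', ∀ y ∈ X', a x = a y) :
    S.card + X'.card ≤ E'.card + 1 := by
  let A : Matrix S E' K := fun w e =>
    (if C.L e = w then 1 else 0) - (if C.R e = w then 1 else 0)
  let B : Matrix E' X' K := fun e x =>
    (if C.h e = x then 1 else 0) - (if C.t e = x then 1 else 0)
  have := rank_bound A B ?_ ?_ ?_
  · simpa using this
  · ext w x
    have := C.dd (fun u => if u = w then 1 else 0) (fun y => if y = x then 1 else 0)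
    rw [Matrix.mul_apply, Matrix.zero_apply, ← this]
    rw [Finset.sum_coe_sort E' (fun e => ((if C.L e = w then (1 : K) else 0) -
      (if C.R e = w then 1 else 0)) * ((if C.h e = x then 1 else 0) -
      (if C.t e = x then 1 else 0)))]
    refine Finset.sum_subset (Finset.subset_univ _) fun e _ he => ?_
    have h1 : C.L e ≠ w := fun h => he (hE e (Or.inl (h ▸ w.2)))
    have h2 : C.R e ≠ w := fun h => he (hE e (Or.inr (h ▸ w.2)))
    simp [h1, h2]
  · intro g hg
    let g' : F → K := fun u => if h : u ∈ S then g ⟨u, h⟩ else 0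
    have : ∀ e, g' (C.L e) = g' (C.R e) := by
      intro e
      by_cases he : e ∈ E'
      · have := congrFun hg ⟨e, he⟩
        simp only [Matrix.vecMul, dotProduct, A, mul_sub, Finset.sum_sub_distrib, sum_ind,
          Pi.zero_apply] at this
        exact sub_eq_zero.1 this
      · have h1 : C.L e ∉ S := fun h => he (hE e (Or.inl h))
        have h2 : C.R e ∉ S := fun h => he (hE e (Or.inr h))
        simp [g', h1, h2]
    funext w
    have := hF g' this w f0
    simpa [g', hS] using this
  · intro a ha x y
    let a' : X → K := fun u => if h : u ∈ X' then a ⟨u, h⟩ else 0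
    have : ∀ e ∈ E', a' (C.h e) = a' (C.t e) := by
      intro e he
      have := congrFun ha ⟨e, he⟩
      simp only [Matrix.mulVec, dotProduct, B, mul_comm _ (a _), mul_sub, Finset.sum_sub_distrib,
        sum_ind, Pi.zero_apply] at this
      exact sub_eq_zero.1 this
    have := hX a' this x x.2 y y.2
    simpa [a'] using this

omit [DecidableEq E] in
theorem Cx.exact (C : Cx K F E X) (hF : ∀ g : F → K, (∀ e, g (C.L e) = g (C.R e)) →
    ∀ u v, g u = g v) (hX : ∀ a : X → K, (∀ e, a (C.h e) = a (C.t e)) → ∀ x y, a x = a y)
    (hc : Fintype.card E + 2 ≤ Fintype.card F + Fintype.card X) (f0 : F)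
    (z : E → K) (hz : ∀ a : X → K, ∑ e, z e * (a (C.h e) - a (C.t e)) = 0) :
    ∃ g : F → K, ∀ e, z e = g (C.L e) - g (C.R e) := by
  by_contra hcon
  let S : Finset F := Finset.univ.erase f0
  let A : Matrix (Option S) E K := fun w e => match w with
    | none => z e
    | some w => (if C.L e = w then 1 else 0) - (if C.R e = w then 1 else 0)
  let B : Matrix E X K := fun e x =>
    (if C.h e = x then 1 else 0) - (if C.t e = x then 1 else 0)
  have := rank_bound A B ?_ ?_ ?_
  · simp only [Fintype.card_option, Fintype.card_coe, S, Finset.card_erase_of_mem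
      (Finset.mem_univ f0), Finset.card_univ] at this
    have : 0 < Fintype.card F := Fintype.card_pos_iff.2 ⟨f0⟩
    omega
  · ext w x
    rw [Matrix.mul_apply, Matrix.zero_apply]
    cases w with
    | none => exact hz (fun y => if y = x then 1 else 0)
    | some w => exact C.dd (fun u => if u = w then 1 else 0) (fun y => if y = x then 1 else 0)
  · intro g hg
    let g' : F → K := fun u => if h : u ∈ S then g (some ⟨u, h⟩) else 0
    have key : ∀ e, g none * z e + (g' (C.L e) - g' (C.R e)) = 0 := by
      intro e
      have := congrFun hg e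
      simp only [Matrix.vecMul, dotProduct, Fintype.sum_option, A, mul_sub,
        Finset.sum_sub_distrib, Pi.zero_apply] at this
      rw [sum_ind S (fun w => g (some w)), sum_ind S (fun w => g (some w))] at this
      exact this
    have h0 : g none = 0 := by
      by_contra h0
      refine hcon ⟨fun u => -(g none)⁻¹ * g' u, fun e => ?_⟩
      have := key e
      field_simp
      linear_combination this
    have h1 : ∀ e, g' (C.L e) = g' (C.R e) := fun e => by
      have := key e
      rw [h0, zero_mul, zero_add] at this
      exact sub_eq_zero.1 this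
    funext w
    cases w with
    | none => exact h0
    | some w =>
      have := hF g' h1 w f0
      have h2 : f0 ∉ S := by simp [S]
      simpa [g', h2] using this
  · intro a ha
    refine hX a fun e => ?_
    have := congrFun ha e
    simp only [Matrix.mulVec, dotProduct, B, sub_mul, Finset.sum_sub_distrib, ite_mul, one_mul,
      zero_mul, Finset.sum_ite_eq, Finset.mem_univ, if_true, Pi.zero_apply] at this
    exact sub_eq_zero.1 this

end Vale.Agent.P039
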