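import Vale.Agent.P039.Pair
import Vale.Agent.P039.Disc

namespace Vale.Agent.P039

open Finset Polynomial

universe u

def ε (j r : ZMod 3) : ℚ := if r = j + 1 then 1 else if r = j + 2 then -1 else 0

theorem prod_lin {α : Type*} [DecidableEq α] (S : Finset α) (c : α → ℚ) :
    ∃ r : ℚ[X], ∏ s ∈ S, (1 + C (c s) * X) = 1 + C (∑ s ∈ S, c s) * X + X ^ 2 * r := by
  induction S using Finset.induction_on with
  | empty => exact ⟨0, by simp⟩
  | insert a S ha ih =>
    obtain ⟨r, hr⟩ := ih
    refine ⟨r + C (c a) * C (∑ s ∈ S, c s) + C (c a) * X * r, ?_⟩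
    rw [Finset.prod_insert ha, Finset.sum_insert ha, hr, map_add]
    ring

theorem prod_ε {α : Type*} (S : Finset α) (τ ρ : α → ZMod 3) (h : ∀ s ∈ S, τ s ≠ ρ s) :
    ∏ s ∈ S, ε (τ s) (ρ s) = (-1) ^ (S.filter fun s => ρ s = τ s + 2).card := by
  rw [← Finset.prod_const, Finset.prod_filter]
  refine Finset.prod_congr rfl fun s hs => ?_
  rcases cases3 (ρ s) (τ s) with e | e | e
  · exact absurd e.symm (h s hs)
  · rw [e, if_neg (n12 _), ε, if_pos rfl]
  · rw [e, if_pos rfl, ε, if_neg (n12 _).symm, if_pos rfl]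

theorem card_fb {α : Type*} (S : Finset α) (τ ρ : α → ZMod 3) (h : ∀ s ∈ S, τ s ≠ ρ s) :
    S.card = (S.filter fun s => ρ s = τ s + 1).card + (S.filter fun s => ρ s = τ s + 2).card := by
  rw [← Finset.card_filter_add_card_filter_not (s := S) fun s => ρ s = τ s + 1]
  congr 2
  refine Finset.filter_congr fun s hs => ?_
  have := h s hs
  revert this
  generalize τ s = a; generalize ρ s = b; revert a b; decide

theorem sum_ne_zero {κ : Type*} (K : Finset κ) (hK : K.Nonempty) (F : κ → ℚ[X]) (n : ℕ)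
    (h : ∀ k ∈ K, ∃ (c T : ℕ) (q : ℚ[X]), 2 * T + 3 * c = n ∧ F k = X ^ c * q ∧
      0 < (-1) ^ T * q.coeff 0) : ∑ k ∈ K, F k ≠ 0 := by
  choose! c T q h1 h2 h3 using h
  obtain ⟨k0, hk0, hmin⟩ := K.exists_min_image c hK
  intro h0
  have : 0 < ∑ k ∈ K, (-1) ^ T k0 * (F k).coeff (c k0) := by
    refine Finset.sum_pos' (fun k hk => ?_) ⟨k0, hk0, ?_⟩
    · rw [h2 k hk, Polynomial.coeff_X_pow_mul']
      split_ifs with hh
      · have e : c k = c k0 := le_antisymm hh (hmin k hk)
        have e' : T k = T k0 := by have := h1 k hk; have := h1 k0 hk0; omega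
        rw [← e', e, Nat.sub_self]
        exact (h3 k hk).le
      · simp
    · rw [h2 k0 hk0, Polynomial.coeff_X_pow_mul', if_pos le_rfl, Nat.sub_self]
      exact h3 k0 hk0
  rw [← Finset.mul_sum, ← Polynomial.finsetSum_coeff, h0] at this
  simp at this

namespace PM

variable {B W V : Type u} [Fintype B] [Fintype W] [Fintype V] [DecidableEq B] [DecidableEq W]
  [DecidableEq V] (M : PM B W V)

omit [DecidableEq V] in
theorem exists_θ (w0 : W) : ∃ θ : B → ZMod 3 → ℚ, ∀ g : W → ℚ,
    ∑ s, ∑ i, (g (M.π (i + 1) s) - g (M.π (i + 2) s)) * θ s i = ∑ w, (g w - g w0) := by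
  let pr : W → (W → ℚ) →ₗ[ℚ] ℚ := fun w => LinearMap.proj w
  let J : (W → ℚ) →ₗ[ℚ] (B × ZMod 3 → ℚ) :=
    LinearMap.pi fun e => pr (M.π (e.2 + 1) e.1) - pr (M.π (e.2 + 2) e.1)
  let l : Module.Dual ℚ (W → ℚ) := ∑ w, (pr w - pr w0)
  have : l ∈ LinearMap.range J.dualMap := by
    rw [LinearMap.range_dualMap_eq_dualAnnihilator_ker, Submodule.mem_dualAnnihilator]
    intro g hg
    have := M.hF g fun s i => sub_eq_zero.1 (congrFun hg (s, i))
    simp only [l, pr, LinearMap.sum_apply, LinearMap.sub_apply, LinearMap.proj_apply]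
    exact Finset.sum_eq_zero fun w _ => sub_eq_zero.2 (this _ _)
  obtain ⟨Λ, hΛ⟩ := this
  refine ⟨fun s i => Λ fun e => if (s, i) = e then 1 else 0, fun g => ?_⟩
  have h1 : Λ (J g) = l g := by rw [← hΛ]; rfl
  rw [LinearMap.pi_apply_eq_sum_univ, Fintype.sum_prod_type] at h1
  simpa [l, J, pr] using h1

variable {M}

theorem class_poly {Cy : Finset B} {τ ρ : B → ZMod 3} (h : M.Cyc Cy τ ρ) {s0 : B} (hs0 : s0 ∉ Cy)
    (hτ : M.Val s0 τ) (θ : B → ZMod 3 → ℚ) (hθ : ∀ g : W → ℚ,
    ∑ s, ∑ i, (g (M.π (i + 1) s) - g (M.π (i + 2) s)) * θ s i = ∑ w, (g w - g (M.π 0 s0))) :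
    ∃ (T : ℕ) (q : ℚ[X]), 2 * T + 3 = Cy.card ∧
      ∏ s ∈ Cy, (C (ε (ρ s) (τ s)) * (1 + C (θ s (τ s)) * X)) +
      ∏ s ∈ Cy, (C (ε (τ s) (ρ s)) * (1 + C (θ s (ρ s)) * X)) = X * q ∧
      0 < (-1) ^ T * q.coeff 0 := by
  obtain ⟨S, hS, hc⟩ := disc h hs0 hτ.2.1 hτ.2.2
  obtain ⟨s1, hs1⟩ := h.ne
  obtain ⟨a1, a2, -, -⟩ := hS.inn hs1 (h.neq s1 hs1)
  have key := hθ fun w => if w ∈ S then 1 else 0
  have e0 : ∀ s i, ((if M.π (i + 1) s ∈ S then (1 : ℚ) else 0) -
      (if M.π (i + 2) s ∈ S then 1 else 0)) = (zc Cy τ ρ s i : ℚ) := by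
    intro s i
    rw [← hS s i]
    push_cast
    rfl
  have e1 : ∀ s, ∑ i, (zc Cy τ ρ s i : ℚ) * θ s i =
      if s ∈ Cy then θ s (τ s) - θ s (ρ s) else 0 := by
    intro s
    simp only [zc]
    split_ifs <;> simp [Finset.sum_sub_distrib, sub_mul]
  simp only [e0, e1, Finset.sum_ite_mem, Finset.univ_inter, Finset.sum_sub_distrib,
    Finset.sum_const, nsmul_eq_mul, mul_one, Finset.card_univ] at key
  obtain ⟨r1, hr1⟩ := prod_lin Cy fun s => θ s (τ s)
  obtain ⟨r2, hr2⟩ := prod_lin Cy fun s => θ s (ρ s)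
  have e2 : (Cy.filter fun s => τ s = ρ s + 2) = Cy.filter fun s => ρ s = τ s + 1 :=
    Finset.filter_congr fun s _ => by
      generalize τ s = a; generalize ρ s = b; revert a b; decide
  rw [Finset.prod_mul_distrib, Finset.prod_mul_distrib, ← map_prod, ← map_prod,
    prod_ε _ _ _ h.neq, prod_ε _ _ _ h.symm.neq, e2, hr1, hr2, card_fb _ _ _ h.neq]
  generalize (Cy.filter fun s => ρ s = τ s + 1).card = f at hc
  generalize (Cy.filter fun s => ρ s = τ s + 2).card = b at hc
  generalize ∑ s ∈ Cy, θ s (τ s) = α at key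
  generalize ∑ s ∈ Cy, θ s (ρ s) = β at key
  have p1 : (0 : ℚ) < S.card := by exact_mod_cast Finset.card_pos.2 ⟨_, a1⟩
  have p2 : (S.card : ℚ) < Fintype.card W := by
    exact_mod_cast Finset.card_lt_univ_of_notMem a2
  rcases hc with ⟨h0, rfl⟩ | ⟨h0, rfl⟩
  · refine ⟨b, C ((-1) ^ b) * (C β - C α + X * (r2 - r1)), by ring, ?_, ?_⟩
    · simp only [map_pow, map_neg, map_one]
      ring
    · simp only [h0, if_true, mul_one] at key
      simp only [Polynomial.coeff_add, Polynomial.coeff_sub,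
        Polynomial.coeff_C_zero, Polynomial.mul_coeff_zero, Polynomial.coeff_X_zero, zero_mul,
        add_zero, ← mul_assoc, ← mul_pow]
      norm_num
      linarith
  · refine ⟨f, C ((-1) ^ f) * (C α - C β + X * (r1 - r2)), by ring, ?_, ?_⟩
    · simp only [map_pow, map_neg, map_one]
      ring
    · simp only [h0, if_false, mul_zero, sub_zero] at key
      simp only [Polynomial.coeff_add, Polynomial.coeff_sub,
        Polynomial.coeff_C_zero, Polynomial.mul_coeff_zero, Polynomial.coeff_X_zero, zero_mul,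
        add_zero, ← mul_assoc, ← mul_pow]
      norm_num
      linarith

/-- The weight of a pair. -/
noncomputable def wt (s0 : B) (θ : B → ZMod 3 → ℚ) (p : (B → ZMod 3) × (B → ZMod 3)) : ℚ[X] :=
  ∏ s ∈ univ.erase s0, (C (ε (p.1 s) (p.2 s)) * (1 + C (θ s (p.2 s)) * X))

variable (M) in
open Classical in
noncomputable def pairs (s0 : B) : Finset ((B → ZMod 3) × (B → ZMod 3)) :=
  univ.filter fun p => M.Val s0 p.1 ∧ M.Val s0 p.2 ∧ ∀ s, s ≠ s0 → p.1 s ≠ p.2 s

theorem fiber {s0 : B} (θ : B → ZMod 3 → ℚ) (hθ : ∀ g : W → ℚ,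
    ∑ s, ∑ i, (g (M.π (i + 1) s) - g (M.π (i + 2) s)) * θ s i = ∑ w, (g w - g (M.π 0 s0)))
    {τ ρ : B → ZMod 3} (hτ : M.Val s0 τ) (hρ : M.Val s0 ρ) (hne : ∀ s, s ≠ s0 → τ s ≠ ρ s) :
    ∃ (c T : ℕ) (q : ℚ[X]), 2 * T + 3 * c = Fintype.card B - 1 ∧
      ∑ p ∈ (M.pairs s0).filter (fun p => p.1 + p.2 = τ + ρ), wt s0 θ p = X ^ c * q ∧
      0 < (-1) ^ T * q.coeff 0 := by
  classical
  let r : B → B → Prop := fun s s' => M.x s (ρ s) = M.x s' (τ s')
  let mk : B → Quot r := Quot.mk r
  let Qs : Finset (Quot r) := (univ.erase s0).image mk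
  let cl : Quot r → Finset B := fun c => (univ.erase s0).filter fun s => mk s = c
  have inv : ∀ A : B → Prop, (∀ s s', r s s' → (A s ↔ A s')) → ∀ s s', mk s = mk s' →
      A s → A s' := by
    intro A hA s s' e h
    have := congrArg (Quot.lift A fun a b hab => propext (hA a b hab)) e
    exact (iff_of_eq this).1 h
  have r0 : ∀ s s', r s s' → (s = s0 ↔ s' = s0) := by
    intro s s' e
    constructor
    · rintro rfl
      by_contra h
      exact hτ.2.1 s' h _ e.symm
    · rintro rfl
      by_contra h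
      exact hρ.2.1 s h _ e
  have hcyc : ∀ c ∈ Qs, M.Cyc (cl c) τ ρ := by
    intro c hc
    obtain ⟨s1, hs1, rfl⟩ := Finset.mem_image.1 hc
    have mem : ∀ s, s ∈ cl (mk s1) ↔ s ≠ s0 ∧ mk s = mk s1 := fun s => by simp [cl]
    refine ⟨⟨s1, Finset.mem_filter.2 ⟨hs1, rfl⟩⟩, fun s hs => hne s ((mem s).1 hs).1,
      fun s _ s' _ e => hτ.inj e, fun s _ s' _ e => hρ.inj e, fun s hs => ?_, fun s hs => ?_,
      fun A hA s hs s' hs' h => ?_⟩
    · obtain ⟨s', h1, h2⟩ := hτ.surj _ (hρ.2.1 s ((mem s).1 hs).1)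
      exact ⟨s', (mem s').2 ⟨h1, (Quot.sound h2.symm : mk s = mk s').symm.trans
        ((mem s).1 hs).2⟩, h2.symm⟩
    · obtain ⟨s', h1, h2⟩ := hρ.surj _ (hτ.2.1 s ((mem s).1 hs).1)
      exact ⟨s', (mem s').2 ⟨h1, (Quot.sound h2 : mk s' = mk s).trans
        ((mem s).1 hs).2⟩, h2.symm⟩
    · refine (inv (fun s => s ∈ cl (mk s1) ∧ A s) (fun a b hab => ?_) s s'
        (((mem s).1 hs).2.trans ((mem s').1 hs').2.symm) ⟨hs, h⟩).2
      have e : a ∈ cl (mk s1) ↔ b ∈ cl (mk s1) := by
        rw [mem, mem, show mk a = mk b from Quot.sound hab, ne_eq, r0 a b hab]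
      constructor
      · rintro ⟨h1, h2⟩
        exact ⟨e.1 h1, (hA a h1 b (e.1 h1) hab).1 h2⟩
      · rintro ⟨h1, h2⟩
        exact ⟨e.2 h1, (hA a (e.2 h1) b h1 hab).2 h2⟩
  have hcl := fun c hc => class_poly (hcyc c hc) (by simp [cl]) hτ θ hθ
  choose! T q h1 h2 h3 using hcl
  refine ⟨Qs.card, ∑ c ∈ Qs, T c, ∏ c ∈ Qs, q c, ?_, ?_, ?_⟩
  · have : (univ.erase s0).card = ∑ c ∈ Qs, (cl c).card :=
      Finset.card_eq_sum_card_fiberwise (f := mk) fun s hs => Finset.mem_image_of_mem _ hs
    rw [Finset.card_erase_of_mem (mem_univ _), Finset.card_univ] at this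
    rw [this, ← Finset.sum_congr rfl h1, Finset.sum_add_distrib, Finset.mul_sum]
    simp [mul_comm]
  · rw [← Finset.prod_const, ← Finset.prod_mul_distrib, ← Finset.prod_congr rfl h2,
      Finset.prod_add]
    symm
    have val : ∀ (J : Finset (Quot r)) (a b : B → ZMod 3), M.Val s0 a → M.Val s0 b →
        (∀ s s', M.x s (a s) = M.x s' (b s') → mk s = mk s') →
        M.Val s0 fun s => if mk s ∈ J then a s else b s := by
      intro J a b ha hb hab
      refine ⟨by simp [ha.1, hb.1], fun s hs i => ?_, fun s s' _ _ e => ?_⟩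
      · dsimp only
        split_ifs
        · exact ha.2.1 s hs i
        · exact hb.2.1 s hs i
      · dsimp only at e
        split_ifs at e with c1 c2 c2
        · exact ha.inj e
        · exact absurd (hab s s' e ▸ c1) c2
        · exact absurd (hab s' s e.symm ▸ c2) c1
        · exact hb.inj e
    refine Finset.sum_bij (fun J _ => (fun s => if mk s ∈ J then ρ s else τ s,
      fun s => if mk s ∈ J then τ s else ρ s)) (fun J _ => ?_) (fun J hJ J' hJ' e => ?_)
      (fun p hp => ?_) (fun J hJ => ?_)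
    · simp only [pairs, Finset.mem_filter, Finset.mem_univ, true_and]
      refine ⟨⟨val J ρ τ hρ hτ fun s s' e => Quot.sound e,
        val J τ ρ hτ hρ fun s s' e => (Quot.sound e.symm : mk s' = mk s).symm, fun s hs => ?_⟩, ?_⟩
      · by_cases c : mk s ∈ J <;> simp [c, hne s hs, (hne s hs).symm]
      · funext s
        by_cases c : mk s ∈ J <;> simp [c, add_comm]
    · have e1 := congrArg Prod.fst e
      have : ∀ c ∈ Qs, c ∈ J ↔ c ∈ J' := by
        intro c hc
        obtain ⟨s, hs, rfl⟩ := Finset.mem_image.1 hc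
        have e2 := congrFun e1 s
        have := hne s (Finset.mem_erase.1 hs).1
        by_cases c1 : mk s ∈ J <;> by_cases c2 : mk s ∈ J' <;> simp_all
      ext c
      exact ⟨fun h => (this c (Finset.mem_powerset.1 hJ h)).1 h,
        fun h => (this c (Finset.mem_powerset.1 hJ' h)).2 h⟩
    · obtain ⟨a, b⟩ := p
      simp only [pairs, Finset.mem_filter, Finset.mem_univ, true_and] at hp
      obtain ⟨⟨ha, hb, hab⟩, hs⟩ := hp
      have two : ∀ s, (a s = τ s ∧ b s = ρ s) ∨ (a s = ρ s ∧ b s = τ s) := by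
        intro s
        by_cases c : s = s0
        · rw [c, ha.1, hb.1, hτ.1, hρ.1]; simp
        · have e1 : a s + b s = τ s + ρ s := congrFun hs s
          have e2 := hab s c
          have e3 := hne s c
          revert e1 e2 e3
          generalize a s = x1; generalize b s = x2; generalize τ s = x3; generalize ρ s = x4
          revert x1 x2 x3 x4; decide
      have fl : ∀ s s', r s s' → (a s ≠ τ s ↔ a s' ≠ τ s') := by
        intro s s' e
        constructor
        · intro c1 c2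
          have e1 : a s = ρ s := ((two s).resolve_left fun h => c1 h.1).1
          have : s = s' := ha.inj (by rw [e1, c2]; exact e)
          exact c1 (this ▸ c2)
        · intro c1 c2
          have e1 : b s' = τ s' := ((two s').resolve_left fun h => c1 h.1).2
          have e2 : b s = ρ s := by
            rcases two s with h | h
            · exact h.2
            · rw [h.2, ← c2, h.1]
          have : s = s' := hb.inj (by rw [e1, e2]; exact e)
          exact c1 (this ▸ c2)
      have mem : ∀ s, mk s ∈ (univ.filter fun s => a s ≠ τ s).image mk ↔ a s ≠ τ s := by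
        intro s
        constructor
        · intro h
          obtain ⟨s', hs', e⟩ := Finset.mem_image.1 h
          exact inv _ fl s' s e (Finset.mem_filter.1 hs').2
        · intro h
          exact Finset.mem_image_of_mem _ (by simpa)
      refine ⟨(univ.filter fun s => a s ≠ τ s).image mk, ?_, ?_⟩
      · refine Finset.mem_powerset.2 (Finset.image_subset_image fun s hs => ?_)
        refine Finset.mem_erase.2 ⟨?_, mem_univ _⟩
        rintro rfl
        exact (Finset.mem_filter.1 hs).2 (by rw [ha.1, hτ.1])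
      · refine Prod.ext (funext fun s => ?_) (funext fun s => ?_)
        · simp only [mem]
          split_ifs with c
          · exact ((two s).resolve_left fun h => c h.1).1.symm
          · exact (not_not.1 c).symm
        · simp only [mem]
          split_ifs with c
          · exact ((two s).resolve_left fun h => c h.1).2.symm
          · rcases two s with h | h
            · exact h.2.symm
            · rw [h.2, ← not_not.1 c, h.1]
    · rw [wt, ← Finset.prod_fiberwise_of_maps_to (g := mk) (t := Qs)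
        fun s hs => Finset.mem_image_of_mem _ hs,
        ← Finset.prod_sdiff (Finset.mem_powerset.1 hJ), mul_comm]
      refine congrArg₂ (· * ·) ?_ ?_
      · refine Finset.prod_congr rfl fun c hc => Finset.prod_congr rfl fun s hs => ?_
        have : mk s ∉ J := by
          rw [(Finset.mem_filter.1 hs).2]; exact (Finset.mem_sdiff.1 hc).2
        simp [this]
      · refine Finset.prod_congr rfl fun c hc => Finset.prod_congr rfl fun s hs => ?_
        have : mk s ∈ J := by rw [(Finset.mem_filter.1 hs).2]; exact hc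
        simp [this]
  · rw [Polynomial.coeff_zero_eq_eval_zero, Polynomial.eval_prod, ← Finset.prod_pow_eq_pow_sum,
      ← Finset.prod_mul_distrib]
    exact Finset.prod_pos fun c hc => by
      rw [← Polynomial.coeff_zero_eq_eval_zero]; exact h3 c hc

open Classical in
theorem exists_ρ (h4 : M.Four) (h2 : 2 ≤ Fintype.card B) (s0 : B) :
    ∃ ρ, M.Val s0 ρ ∧
      ∑ τ ∈ univ.filter (M.Val s0), ∏ s ∈ univ.erase s0, ε (τ s) (ρ s) ≠ 0 := by
  obtain ⟨θ, hθ⟩ := M.exists_θ (M.π 0 s0)
  obtain ⟨τ0, ρ0, h1, h3, h5⟩ := M.exists_pair h4 h2 s0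
  have key := sum_ne_zero ((M.pairs s0).image fun p => p.1 + p.2)
    (Finset.Nonempty.image ⟨(τ0, ρ0), by simp [pairs, h1, h3]; exact h5⟩ _)
    (fun k => ∑ p ∈ (M.pairs s0).filter (fun p => p.1 + p.2 = k), wt s0 θ p)
    (Fintype.card B - 1) (fun k hk => by
      obtain ⟨p, hp, rfl⟩ := Finset.mem_image.1 hk
      simp only [pairs, Finset.mem_filter, Finset.mem_univ, true_and] at hp
      exact fiber θ hθ hp.1 hp.2.1 hp.2.2)
  rw [Finset.sum_fiberwise_of_maps_to fun p hp => Finset.mem_image_of_mem _ hp] at key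
  by_contra hcon
  push Not at hcon
  apply key
  have e : ∑ p ∈ M.pairs s0, wt s0 θ p =
      ∑ p ∈ univ.filter (M.Val s0) ×ˢ univ.filter (M.Val s0), wt s0 θ p := by
    refine Finset.sum_subset (fun p hp => ?_) (fun p hp hp' => ?_)
    · simp only [pairs, Finset.mem_filter, Finset.mem_univ, true_and] at hp
      simp [hp.1, hp.2.1]
    · simp only [Finset.mem_product, Finset.mem_filter, Finset.mem_univ, true_and] at hp
      simp only [pairs, Finset.mem_filter, Finset.mem_univ, true_and, hp.1, hp.2, not_forall,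
        not_not] at hp'
      obtain ⟨s, hs, e⟩ := hp'
      refine Finset.prod_eq_zero (Finset.mem_erase.2 ⟨hs, mem_univ _⟩) ?_
      rw [e, ε, if_neg (n01 _), if_neg (n02 _)]
      simp
  rw [e, Finset.sum_product_right]
  refine Finset.sum_eq_zero fun ρ hρ => ?_
  simp only [wt, Finset.prod_mul_distrib, ← Finset.sum_mul, ← map_prod, ← map_sum]
  rw [hcon ρ (Finset.mem_filter.1 hρ).2]
  simp

end PM

end Vale.Agent.P039
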